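import Vale.Agent.H36.PI.Basic

/-!
# Entrywise Cuntz comparison of amplifications

`AmpSub ι κ a b` says that `a ⊗ 1_ι` is Cuntz-subequivalent to `b ⊗ 1_κ`:
for every `ε > 0` there is a `κ × ι` matrix `r` over `A` with
`‖(r* (b ⊗ 1_κ) r)_{ij} - δ_{ij} a‖ < ε` for all `i j`.
-/

set_option linter.unusedSectionVars false

namespace Vale.Agent.H36.PI

variable {A : Type*} [CStarAlgebra A]

/-- `a ⊗ 1_ι ≾ b ⊗ 1_κ`, entrywise. -/
def AmpSub (ι κ : Type) [Fintype ι] [Fintype κ] [DecidableEq ι] (a b : A) : Prop :=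
  ∀ ε : ℝ, 0 < ε → ∃ r : κ → ι → A, ∀ i j : ι,
    ‖∑ k, star (r k i) * b * r k j - (if i = j then a else 0)‖ < ε

namespace AmpSub

variable {ι κ μ : Type} [Fintype ι] [Fintype κ] [Fintype μ]
  [DecidableEq ι] [DecidableEq κ] [DecidableEq μ]

theorem of_exact {a b : A} (r : κ → ι → A)
    (h : ∀ i j : ι, ∑ k, star (r k i) * b * r k j = (if i = j then a else 0)) :
    AmpSub ι κ a b := by
  intro ε hε
  refine ⟨r, fun i j => ?_⟩
  rw [h i j, sub_self, norm_zero]
  exact hε

theorem limit {a b : A} (h : ∀ ε : ℝ, 0 < ε → ∃ a' : A, ‖a' - a‖ < ε ∧ AmpSub ι κ a' b) :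
    AmpSub ι κ a b := by
  intro ε hε
  obtain ⟨a', ha', h'⟩ := h (ε / 2) (by positivity)
  obtain ⟨r, hr⟩ := h' (ε / 2) (by positivity)
  refine ⟨r, fun i j => ?_⟩
  have h1 := hr i j
  by_cases hij : i = j
  · simp only [hij, if_true] at h1 ⊢
    calc ‖∑ k, star (r k j) * b * r k j - a‖
        = ‖(∑ k, star (r k j) * b * r k j - a') + (a' - a)‖ := by congr 1; abel
      _ ≤ ‖∑ k, star (r k j) * b * r k j - a'‖ + ‖a' - a‖ := norm_add_le _ _
      _ < ε / 2 + ε / 2 := add_lt_add h1 ha'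
      _ = ε := by ring
  · simp only [hij, if_false] at h1 ⊢
    linarith

/-- Restriction of the columns along an injection. -/
theorem cols {ι' : Type} [Fintype ι'] [DecidableEq ι'] {a b : A} (f : ι' → ι)
    (hf : Function.Injective f) (h : AmpSub ι κ a b) : AmpSub ι' κ a b := by
  intro ε hε
  obtain ⟨r, hr⟩ := h ε hε
  refine ⟨fun k i => r k (f i), fun i j => ?_⟩
  have h1 := hr (f i) (f j)
  by_cases hij : i = j
  · subst hij; simpa using h1
  · have : f i ≠ f j := fun h' => hij (hf h')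
    simpa [hij, this] using h1

/-- `b ⊗ 1_κ ≾ b ⊗ 1_κ'` when `κ` embeds in `κ'`. -/
theorem embed {κ' : Type} [Fintype κ'] [DecidableEq κ'] (b : A) (g : κ → κ')
    (hg : Function.Injective g) : AmpSub κ κ' b b := by
  apply of_exact (fun k' k => if g k = k' then (1 : A) else 0)
  intro i j
  have h1 : ∀ k' : κ', star (if g i = k' then (1 : A) else 0) * b * (if g j = k' then (1 : A) else 0)
      = if g i = k' then (if g j = k' then b else 0) else 0 := by
    intro k'
    by_cases h1 : g i = k' <;> by_cases h2 : g j = k' <;> simp [h1, h2]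
  simp only [h1]
  rw [Finset.sum_ite_eq Finset.univ (g i) (fun k' => if g j = k' then b else 0)]
  simp only [Finset.mem_univ, if_true]
  by_cases hij : i = j
  · subst hij; simp
  · have : g j ≠ g i := fun h' => hij (hg h').symm
    simp [hij, this]

/-- Transitivity. -/
theorem trans {a b c : A} (h1 : AmpSub ι κ a b) (h2 : AmpSub κ μ b c) : AmpSub ι μ a c := by
  intro ε hε
  obtain ⟨r, hr⟩ := h1 (ε / 2) (by positivity)
  set R : ℝ := ∑ k, ∑ i, ‖r k i‖ with hR
  have hR0 : 0 ≤ R := Finset.sum_nonneg fun k _ => Finset.sum_nonneg fun i _ => norm_nonneg _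
  have hRle : ∀ k i, ‖r k i‖ ≤ R := by
    intro k i
    calc ‖r k i‖ ≤ ∑ i', ‖r k i'‖ :=
          Finset.single_le_sum (f := fun i' => ‖r k i'‖) (fun _ _ => norm_nonneg _)
            (Finset.mem_univ i)
      _ ≤ R := Finset.single_le_sum (f := fun k' => ∑ i', ‖r k' i'‖)
            (fun _ _ => Finset.sum_nonneg fun _ _ => norm_nonneg _) (Finset.mem_univ k)
  set N : ℝ := (Fintype.card κ : ℝ) with hN
  have hN0 : 0 ≤ N := Nat.cast_nonneg _
  set ε' : ℝ := ε / (2 * (N * R * (N * R) + 1)) with hε'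
  have hden : 0 < 2 * (N * R * (N * R) + 1) := by positivity
  have hε'0 : 0 < ε' := div_pos hε hden
  obtain ⟨s, hs⟩ := h2 ε' hε'0
  refine ⟨fun m i => ∑ k, s m k * r k i, fun i j => ?_⟩
  -- the error terms
  set err : κ → κ → A := fun k k' =>
    ∑ m, star (s m k) * c * s m k' - (if k = k' then b else 0) with herr
  have hexp : ∑ m, star (∑ k, s m k * r k i) * c * (∑ k, s m k * r k j)
      = ∑ k, ∑ k', star (r k i) * (∑ m, star (s m k) * c * s m k') * r k' j := by
    simp only [star_sum, star_mul, Finset.sum_mul, Finset.mul_sum]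
    rw [Finset.sum_comm]
    conv_rhs => rw [Finset.sum_comm]
    refine Finset.sum_congr rfl fun k' _ => ?_
    rw [Finset.sum_comm]
    refine Finset.sum_congr rfl fun k _ => ?_
    refine Finset.sum_congr rfl fun m _ => ?_
    noncomm_ring
  have hsplit : ∑ k, ∑ k', star (r k i) * (∑ m, star (s m k) * c * s m k') * r k' j
      = (∑ k, ∑ k', star (r k i) * err k k' * r k' j) + ∑ k, star (r k i) * b * r k j := by
    have h3 : ∀ k k', star (r k i) * (∑ m, star (s m k) * c * s m k') * r k' j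
        = star (r k i) * err k k' * r k' j
          + (if k = k' then star (r k i) * b * r k' j else 0) := by
      intro k k'
      rw [herr]
      by_cases hkk : k = k'
      · simp only [hkk, if_true]; noncomm_ring
      · simp only [hkk, if_false]; noncomm_ring
    simp only [h3, Finset.sum_add_distrib]
    congr 1
    refine Finset.sum_congr rfl fun k _ => ?_
    rw [Finset.sum_ite_eq Finset.univ k (fun k' => star (r k i) * b * r k' j)]
    simp
  have herrbound : ‖∑ k, ∑ k', star (r k i) * err k k' * r k' j‖ ≤ N * R * (N * R) * ε' := by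
    calc ‖∑ k, ∑ k', star (r k i) * err k k' * r k' j‖
        ≤ ∑ k, ‖∑ k', star (r k i) * err k k' * r k' j‖ := norm_sum_le _ _
      _ ≤ ∑ k, ∑ k', ‖star (r k i) * err k k' * r k' j‖ :=
          Finset.sum_le_sum fun k _ => norm_sum_le _ _
      _ ≤ ∑ _k : κ, ∑ _k' : κ, R * ε' * R := by
          refine Finset.sum_le_sum fun k _ => Finset.sum_le_sum fun k' _ => ?_
          calc ‖star (r k i) * err k k' * r k' j‖
              ≤ ‖star (r k i)‖ * ‖err k k'‖ * ‖r k' j‖ := by
                calc ‖star (r k i) * err k k' * r k' j‖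
                    ≤ ‖star (r k i) * err k k'‖ * ‖r k' j‖ := norm_mul_le _ _
                  _ ≤ ‖star (r k i)‖ * ‖err k k'‖ * ‖r k' j‖ :=
                      mul_le_mul_of_nonneg_right (norm_mul_le _ _) (norm_nonneg _)
            _ ≤ R * ε' * R := by
                rw [norm_star]
                have e1 := hRle k i
                have e2 := hRle k' j
                have e3 : ‖err k k'‖ ≤ ε' := (hs k k').le
                have e4 : ‖r k i‖ * ‖err k k'‖ ≤ R * ε' :=
                  mul_le_mul e1 e3 (norm_nonneg _) hR0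
                exact mul_le_mul e4 e2 (norm_nonneg _) (by positivity)
      _ = N * R * (N * R) * ε' := by
          simp only [Finset.sum_const, Finset.card_univ, nsmul_eq_mul]
          rw [hN]; ring
  have hsmall : N * R * (N * R) * ε' < ε / 2 := by
    rw [hε']
    have hX : 0 ≤ N * R * (N * R) := by positivity
    rw [mul_div_assoc', div_lt_div_iff₀ hden (by norm_num : (0 : ℝ) < 2)]
    nlinarith
  have hmain := hr i j
  calc ‖∑ m, star (∑ k, s m k * r k i) * c * (∑ k, s m k * r k j) - (if i = j then a else 0)‖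
      = ‖(∑ k, ∑ k', star (r k i) * err k k' * r k' j)
          + (∑ k, star (r k i) * b * r k j - (if i = j then a else 0))‖ := by
        rw [hexp, hsplit]; congr 1; abel
    _ ≤ ‖∑ k, ∑ k', star (r k i) * err k k' * r k' j‖
          + ‖∑ k, star (r k i) * b * r k j - (if i = j then a else 0)‖ := norm_add_le _ _
    _ < ε / 2 + ε / 2 := by
        have := lt_of_le_of_lt herrbound hsmall
        exact add_lt_add this hmain
    _ = ε := by ring

/-- Block-diagonal sums. -/
theorem sum {ι' κ' : Type} [Fintype ι'] [Fintype κ'] [DecidableEq ι'] [DecidableEq κ']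
    {a b : A} (h1 : AmpSub ι κ a b) (h2 : AmpSub ι' κ' a b) :
    AmpSub (ι ⊕ ι') (κ ⊕ κ') a b := by
  intro ε hε
  obtain ⟨r₁, hr₁⟩ := h1 ε hε
  obtain ⟨r₂, hr₂⟩ := h2 ε hε
  refine ⟨Sum.elim (fun k => Sum.elim (fun i => r₁ k i) (fun _ => 0))
    (fun k => Sum.elim (fun _ => 0) (fun i => r₂ k i)), fun i j => ?_⟩
  rw [Fintype.sum_sum_type]
  rcases i with i | i <;> rcases j with j | j
  · simpa using hr₁ i j
  · simpa using hε
  · simpa using hε
  · simpa using hr₂ i j

/-- Amplification by a finite type. -/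
theorem prod (μ : Type) [Fintype μ] [DecidableEq μ] {a b : A} (h : AmpSub ι κ a b) :
    AmpSub (ι × μ) (κ × μ) a b := by
  intro ε hε
  obtain ⟨r, hr⟩ := h ε hε
  refine ⟨fun k i => if k.2 = i.2 then r k.1 i.1 else 0, fun i j => ?_⟩
  obtain ⟨i, u₁⟩ := i
  obtain ⟨j, u₂⟩ := j
  rw [Fintype.sum_prod_type]
  have h1 : ∀ k : κ, ∑ u : μ, star (if u = u₁ then r k i else 0) * b * (if u = u₂ then r k j else 0)
      = if u₁ = u₂ then star (r k i) * b * r k j else 0 := by
    intro k
    have h2 : ∀ u : μ, star (if u = u₁ then r k i else 0) * b * (if u = u₂ then r k j else 0)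
        = if u = u₁ then (if u₁ = u₂ then star (r k i) * b * r k j else 0) else 0 := by
      intro u
      by_cases hu : u = u₁
      · subst hu
        by_cases hu2 : u = u₂ <;> simp [hu2]
      · simp [hu]
    simp only [h2]
    rw [Finset.sum_ite_eq' Finset.univ u₁]
    simp
  simp only [h1]
  by_cases hu : u₁ = u₂
  · subst hu
    have h3 := hr i j
    by_cases hij : i = j
    · subst hij; simpa using h3
    · simpa [hij] using h3
  · simpa [hu] using hε

/-- Compression of the left side by an element. -/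
theorem conj {a b : A} (x : A) (h : AmpSub ι κ a b) : AmpSub ι κ (star x * a * x) b := by
  intro ε hε
  have hden : 0 < ‖x‖ * ‖x‖ + 1 := by positivity
  obtain ⟨r, hr⟩ := h (ε / (‖x‖ * ‖x‖ + 1)) (div_pos hε hden)
  refine ⟨fun k i => r k i * x, fun i j => ?_⟩
  have h1 : ∑ k, star (r k i * x) * b * (r k j * x) - (if i = j then star x * a * x else 0)
      = star x * (∑ k, star (r k i) * b * r k j - (if i = j then a else 0)) * x := by
    rw [mul_sub, sub_mul, Finset.mul_sum, Finset.sum_mul]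
    congr 1
    · refine Finset.sum_congr rfl fun k _ => ?_
      rw [star_mul]; noncomm_ring
    · by_cases hij : i = j <;> simp [hij]
  rw [h1]
  have h2 := hr i j
  calc ‖star x * (∑ k, star (r k i) * b * r k j - (if i = j then a else 0)) * x‖
      ≤ ‖star x * (∑ k, star (r k i) * b * r k j - (if i = j then a else 0))‖ * ‖x‖ :=
        norm_mul_le _ _
    _ ≤ ‖star x‖ * ‖∑ k, star (r k i) * b * r k j - (if i = j then a else 0)‖ * ‖x‖ :=
        mul_le_mul_of_nonneg_right (norm_mul_le _ _) (norm_nonneg _)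
    _ = (‖x‖ * ‖x‖) * ‖∑ k, star (r k i) * b * r k j - (if i = j then a else 0)‖ := by
        rw [norm_star]; ring
    _ ≤ (‖x‖ * ‖x‖) * (ε / (‖x‖ * ‖x‖ + 1)) :=
        mul_le_mul_of_nonneg_left h2.le (by positivity)
    _ < ε := by
        rw [mul_div_assoc', div_lt_iff₀ hden]
        nlinarith [mul_nonneg (norm_nonneg x) (norm_nonneg x)]

/-- Sums of single elements dominated by amplifications. -/
theorem add_unit {κ' : Type} [Fintype κ'] [DecidableEq κ'] {a a' b : A}
    (h1 : AmpSub Unit κ a b) (h2 : AmpSub Unit κ' a' b) : AmpSub Unit (κ ⊕ κ') (a + a') b := by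
  intro ε hε
  obtain ⟨r₁, hr₁⟩ := h1 (ε / 2) (by positivity)
  obtain ⟨r₂, hr₂⟩ := h2 (ε / 2) (by positivity)
  refine ⟨Sum.elim r₁ r₂, fun i j => ?_⟩
  rw [Fintype.sum_sum_type]
  have e1 := hr₁ () ()
  have e2 := hr₂ () ()
  simp only [if_true, Sum.elim_inl, Sum.elim_inr] at e1 e2 ⊢
  calc ‖∑ k, star (r₁ k i) * b * r₁ k j + ∑ k, star (r₂ k i) * b * r₂ k j - (a + a')‖
      = ‖(∑ k, star (r₁ k ()) * b * r₁ k () - a) + (∑ k, star (r₂ k ()) * b * r₂ k () - a')‖ := by
        congr 1; abel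
    _ ≤ ‖∑ k, star (r₁ k ()) * b * r₁ k () - a‖ + ‖∑ k, star (r₂ k ()) * b * r₂ k () - a'‖ :=
        norm_add_le _ _
    _ < ε / 2 + ε / 2 := add_lt_add e1 e2
    _ = ε := by ring

end AmpSub

section Order

variable [PartialOrder A] [StarOrderedRing A]

/-- The function `1 / sqrt (t + δ)` applied to a positive element. -/
noncomputable def sfun (δ : ℝ) (q : A) : A := cfc (fun t : ℝ => Real.sqrt (1 / (t + δ))) q

theorem sfun_conj {δ : ℝ} (hδ : 0 < δ) {q : A} (hq : 0 ≤ q) :
    sfun δ q * q * sfun δ q = 1 - gfun δ q := by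
  have hsa : IsSelfAdjoint q := hq.isSelfAdjoint
  have hc2 : ContinuousOn (fun t : ℝ => Real.sqrt (1 / (t + δ))) (spectrum ℝ q) :=
    Real.continuous_sqrt.comp_continuousOn (continuousOn_div_add hδ 1 hq)
  have hc1 := continuousOn_div_add hδ δ hq
  unfold sfun gfun
  rw [cfc_mul_id _ q hc2 hsa]
  rw [← cfc_mul (fun t : ℝ => Real.sqrt (1 / (t + δ)) * t)
    (fun t : ℝ => Real.sqrt (1 / (t + δ))) q (by fun_prop)]
  have h1 : (1 : A) = cfc (fun _ : ℝ => (1 : ℝ)) q := by
    rw [cfc_const_one ℝ q]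
  conv_rhs => rw [h1]
  rw [← cfc_sub (fun _ : ℝ => (1 : ℝ)) (fun t : ℝ => δ / (t + δ)) q]
  apply cfc_congr
  intro t ht
  have ht0 : 0 ≤ t := spectrum_nonneg_of_nonneg hq ht
  have h2 : 0 < t + δ := by positivity
  have h3 : Real.sqrt (1 / (t + δ)) * Real.sqrt (1 / (t + δ)) = 1 / (t + δ) :=
    Real.mul_self_sqrt (by positivity)
  simp only
  calc Real.sqrt (1 / (t + δ)) * t * Real.sqrt (1 / (t + δ))
      = (Real.sqrt (1 / (t + δ)) * Real.sqrt (1 / (t + δ))) * t := by ring
    _ = 1 / (t + δ) * t := by rw [h3]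
    _ = 1 - δ / (t + δ) := by field_simp; ring

omit [PartialOrder A] [StarOrderedRing A] in
theorem sfun_selfAdjoint (δ : ℝ) (q : A) : IsSelfAdjoint (sfun δ q) := by
  unfold sfun
  exact cfc_predicate _ _

namespace AmpSub

/-- **Lemma B.** `0 ≤ p ≤ q` implies `p ≾ q`. -/
theorem of_le {p q : A} (hp : 0 ≤ p) (hpq : p ≤ q) : AmpSub Unit Unit p q := by
  intro ε hε
  have hq : 0 ≤ q := hp.trans hpq
  set w : A := CFC.sqrt p with hw
  have hw0 : 0 ≤ w := CFC.sqrt_nonneg p
  have hwsa : star w = w := hw0.isSelfAdjoint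
  have hww : w * w = p := CFC.sqrt_mul_sqrt_self p hp
  set δ : ℝ := (ε / (‖w‖ + 1)) ^ 2 with hδ
  have hden : 0 < ‖w‖ + 1 := by positivity
  have hδ0 : 0 < δ := by positivity
  have hcore : ‖w * gfun δ q‖ ^ 2 ≤ δ := by
    apply core_estimate hq _ hδ0
    rw [hwsa, hww]; exact hpq
  have hcore' : ‖w * gfun δ q‖ ≤ ε / (‖w‖ + 1) :=
    (pow_le_pow_iff_left₀ (norm_nonneg _) (by positivity) two_ne_zero).mp hcore
  refine ⟨fun _ _ => sfun δ q * w, fun i j => ?_⟩
  simp only [Finset.univ_unique, Finset.sum_singleton, if_true]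
  have h1 : star (sfun δ q * w) * q * (sfun δ q * w) - p = - (w * gfun δ q * w) := by
    rw [star_mul, hwsa, (sfun_selfAdjoint δ q).star_eq]
    have : w * sfun δ q * q * (sfun δ q * w) = w * (sfun δ q * q * sfun δ q) * w := by
      noncomm_ring
    rw [this, sfun_conj hδ0 hq, ← hww]
    noncomm_ring
  rw [h1, norm_neg]
  calc ‖w * gfun δ q * w‖ ≤ ‖w * gfun δ q‖ * ‖w‖ := norm_mul_le _ _
    _ ≤ ε / (‖w‖ + 1) * ‖w‖ := mul_le_mul_of_nonneg_right hcore' (norm_nonneg _)
    _ < ε := by
        rw [div_mul_eq_mul_div, div_lt_iff₀ hden]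
        nlinarith [norm_nonneg w]

omit [PartialOrder A] [StarOrderedRing A] in
/-- Nonnegative real multiples. -/
theorem smul_self {t : ℝ} (ht : 0 ≤ t) (q : A) : AmpSub Unit Unit (t • q) q := by
  apply of_exact (fun _ _ => (Real.sqrt t) • (1 : A))
  intro i j
  simp only [Finset.univ_unique, Finset.sum_singleton, if_true]
  rw [star_smul, star_one, smul_mul_assoc, smul_mul_assoc, one_mul, mul_smul_comm, mul_one,
    smul_smul]
  have : (star (Real.sqrt t)) * Real.sqrt t = t := by
    simp [Real.mul_self_sqrt ht]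
  rw [this]

/-- `0 ≤ p ≤ t • q` implies `p ≾ q`. -/
theorem of_le_smul {p q : A} {t : ℝ} (ht : 0 ≤ t) (hp : 0 ≤ p) (hpq : p ≤ t • q) :
    AmpSub Unit Unit p q :=
  (of_le hp hpq).trans (smul_self ht q)

end AmpSub

end Order

end Vale.Agent.H36.PI
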