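import Mathlib

/-!
# Closed two-sided ideals of a unital C*-algebra: basic facts

Elementary facts needed for the comparison theory of positive elements:
closed ideals are hereditary, self-adjoint, and contain `x` as soon as they contain `star x * x`.
-/

namespace Vale.Agent.H36.PI

variable {A : Type*} [CStarAlgebra A] [PartialOrder A] [StarOrderedRing A]

omit [PartialOrder A] [StarOrderedRing A] in
theorem cfc_mul_id (f : ℝ → ℝ) (q : A) (hf : ContinuousOn f (spectrum ℝ q))
    (hq : IsSelfAdjoint q) : cfc f q * q = cfc (fun t => f t * t) q := by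
  have h := cfc_mul f (fun t : ℝ => t) q hf (by fun_prop)
  rw [cfc_id' ℝ q] at h
  exact h.symm

omit [PartialOrder A] [StarOrderedRing A] in
theorem cfc_id_mul (f : ℝ → ℝ) (q : A) (hf : ContinuousOn f (spectrum ℝ q))
    (hq : IsSelfAdjoint q) : q * cfc f q = cfc (fun t => t * f t) q := by
  have h := cfc_mul (fun t : ℝ => t) f q (by fun_prop) hf
  rw [cfc_id' ℝ q] at h
  exact h.symm

/-- The function `δ / (t + δ)` applied to a positive element `q`. -/
noncomputable def gfun (δ : ℝ) (q : A) : A := cfc (fun t : ℝ => δ / (t + δ)) q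

/-- The function `1 / (t + δ)` applied to a positive element `q`. -/
noncomputable def rfun (δ : ℝ) (q : A) : A := cfc (fun t : ℝ => 1 / (t + δ)) q

omit [PartialOrder A] [StarOrderedRing A] in
theorem gfun_selfAdjoint (δ : ℝ) (q : A) : IsSelfAdjoint (gfun δ q) := by
  unfold gfun
  exact cfc_predicate _ _

theorem continuousOn_div_add {δ : ℝ} (hδ : 0 < δ) (c : ℝ) {q : A} (hq : 0 ≤ q) :
    ContinuousOn (fun t : ℝ => c / (t + δ)) (spectrum ℝ q) := by
  apply ContinuousOn.div continuousOn_const (by fun_prop)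
  intro t ht
  have : 0 ≤ t := spectrum_nonneg_of_nonneg hq ht
  positivity

theorem one_sub_gfun {δ : ℝ} (hδ : 0 < δ) {q : A} (hq : 0 ≤ q) :
    1 - gfun δ q = rfun δ q * q := by
  have hsa : IsSelfAdjoint q := hq.isSelfAdjoint
  have hc1 := continuousOn_div_add hδ δ hq
  have hc2 := continuousOn_div_add hδ 1 hq
  unfold gfun rfun
  rw [cfc_mul_id _ q hc2 hsa]
  have h1 : (1 : A) = cfc (fun _ : ℝ => (1 : ℝ)) q := by
    rw [cfc_const_one ℝ q]
  conv_lhs => rw [h1]
  rw [← cfc_sub (fun _ : ℝ => (1 : ℝ)) (fun t : ℝ => δ / (t + δ)) q]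
  apply cfc_congr
  intro t ht
  have : 0 ≤ t := spectrum_nonneg_of_nonneg hq ht
  have h2 : t + δ ≠ 0 := by positivity
  field_simp
  ring

theorem core_estimate {x q : A} (hq : 0 ≤ q) (hxq : star x * x ≤ q) {δ : ℝ} (hδ : 0 < δ) :
    ‖x * gfun δ q‖ ^ 2 ≤ δ := by
  have hsa : IsSelfAdjoint q := hq.isSelfAdjoint
  have hg : star (gfun δ q) = gfun δ q := gfun_selfAdjoint δ q
  have h1 : ‖x * gfun δ q‖ ^ 2 = ‖gfun δ q * (star x * x) * gfun δ q‖ := by
    rw [sq, ← CStarRing.norm_star_mul_self, star_mul, hg]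
    congr 1
    noncomm_ring
  have h2 : gfun δ q * (star x * x) * gfun δ q ≤ gfun δ q * q * gfun δ q := by
    have := star_left_conjugate_le_conjugate hxq (gfun δ q)
    rwa [hg] at this
  have h3 : 0 ≤ gfun δ q * (star x * x) * gfun δ q := by
    have := star_left_conjugate_le_conjugate (star_mul_self_nonneg x) (gfun δ q)
    rw [hg] at this
    simpa using this
  have hc1 := continuousOn_div_add hδ δ hq
  have h4 : gfun δ q * q * gfun δ q = cfc (fun t : ℝ => δ / (t + δ) * t * (δ / (t + δ))) q := by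
    unfold gfun
    rw [cfc_mul_id _ q hc1 hsa]
    rw [← cfc_mul (fun t : ℝ => δ / (t + δ) * t) (fun t : ℝ => δ / (t + δ)) q
      (by fun_prop)]
  have h5 : ‖gfun δ q * q * gfun δ q‖ ≤ δ := by
    rw [h4]
    apply norm_cfc_le hδ.le
    intro t ht
    have ht0 : 0 ≤ t := spectrum_nonneg_of_nonneg hq ht
    have h2 : 0 < t + δ := by positivity
    rw [Real.norm_eq_abs, abs_of_nonneg (by positivity)]
    have : δ / (t + δ) * t * (δ / (t + δ)) = δ * (δ * t / (t + δ) ^ 2) := by
      field_simp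
    rw [this]
    have h6 : δ * t / (t + δ) ^ 2 ≤ 1 := by
      rw [div_le_one (by positivity)]
      nlinarith
    nlinarith
  calc ‖x * gfun δ q‖ ^ 2 = ‖gfun δ q * (star x * x) * gfun δ q‖ := h1
    _ ≤ ‖gfun δ q * q * gfun δ q‖ := CStarAlgebra.norm_le_norm_of_nonneg_of_le h3 h2
    _ ≤ δ := h5

/-! ### Closed two-sided ideals -/

/-- **Lemma A.** A closed two-sided ideal containing `y` contains every `x` with
`star x * x ≤ y`. -/
theorem mem_of_star_mul_self_le (M : TwoSidedIdeal A) (hM : IsClosed (M : Set A))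
    {x y : A} (hy : y ∈ M) (hxy : star x * x ≤ y) : x ∈ M := by
  have hy0 : 0 ≤ y := le_trans (star_mul_self_nonneg x) hxy
  have hcl : x ∈ closure (M : Set A) := by
    rw [Metric.mem_closure_iff]
    intro ε hε
    have hδ : 0 < (ε / 2) ^ 2 := by positivity
    refine ⟨x * (rfun ((ε / 2) ^ 2) y * y), ?_, ?_⟩
    · exact M.mul_mem_left _ _ (M.mul_mem_left _ _ hy)
    · rw [dist_eq_norm, ← one_sub_gfun hδ hy0]
      have h1 : x - x * (1 - gfun ((ε / 2) ^ 2) y) = x * gfun ((ε / 2) ^ 2) y := by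
        noncomm_ring
      rw [h1]
      have h2 := core_estimate hy0 hxy hδ
      have h3 : ‖x * gfun ((ε / 2) ^ 2) y‖ ≤ ε / 2 :=
        (pow_le_pow_iff_left₀ (norm_nonneg _) (by positivity) two_ne_zero).mp h2
      linarith
  rwa [hM.closure_eq] at hcl

theorem mem_of_star_mul_self_mem (M : TwoSidedIdeal A) (hM : IsClosed (M : Set A))
    {x : A} (hx : star x * x ∈ M) : x ∈ M :=
  mem_of_star_mul_self_le M hM hx le_rfl

theorem star_mem_of_mem (M : TwoSidedIdeal A) (hM : IsClosed (M : Set A))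
    {x : A} (hx : x ∈ M) : star x ∈ M := by
  apply mem_of_star_mul_self_mem M hM
  rw [star_star]
  exact M.mul_mem_right _ _ hx

theorem mem_of_mul_self_mem (M : TwoSidedIdeal A) (hM : IsClosed (M : Set A))
    {p : A} (hp : IsSelfAdjoint p) (hpp : p * p ∈ M) : p ∈ M := by
  apply mem_of_star_mul_self_mem M hM
  rwa [hp.star_eq]

theorem sqrt_mem_of_le (M : TwoSidedIdeal A) (hM : IsClosed (M : Set A))
    {x y : A} (hx : 0 ≤ x) (hxy : x ≤ y) (hy : y ∈ M) : CFC.sqrt x ∈ M := by
  apply mem_of_star_mul_self_le M hM hy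
  rw [(CFC.sqrt_nonneg x).isSelfAdjoint.star_eq, CFC.sqrt_mul_sqrt_self x hx]
  exact hxy

/-- Closed two-sided ideals are hereditary. -/
theorem mem_of_nonneg_of_le (M : TwoSidedIdeal A) (hM : IsClosed (M : Set A))
    {x y : A} (hx : 0 ≤ x) (hxy : x ≤ y) (hy : y ∈ M) : x ∈ M := by
  have h := sqrt_mem_of_le M hM hx hxy hy
  rw [← CFC.sqrt_mul_sqrt_self x hx]
  exact M.mul_mem_left _ _ h

omit [PartialOrder A] [StarOrderedRing A] in
theorem real_smul_mem (M : TwoSidedIdeal A) (r : ℝ) {x : A} (hx : x ∈ M) : r • x ∈ M := by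
  rw [Algebra.smul_def]
  exact M.mul_mem_left _ _ hx

omit [PartialOrder A] [StarOrderedRing A] in
theorem complex_smul_mem (M : TwoSidedIdeal A) (r : ℂ) {x : A} (hx : x ∈ M) : r • x ∈ M := by
  rw [Algebra.smul_def]
  exact M.mul_mem_left _ _ hx

/-- The cut-down `(c - δ)_+` of a positive element. -/
noncomputable def cut (δ : ℝ) (c : A) : A := cfc (fun t : ℝ => max (t - δ) 0) c

theorem cut_nonneg (δ : ℝ) (c : A) : 0 ≤ cut δ c := by
  unfold cut
  exact cfc_nonneg (fun t _ => le_max_right _ _)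

theorem norm_cut_sub_le {δ : ℝ} (hδ : 0 ≤ δ) {c : A} (hc : 0 ≤ c) : ‖cut δ c - c‖ ≤ δ := by
  have hsa : IsSelfAdjoint c := hc.isSelfAdjoint
  unfold cut
  have h1 : cfc (fun t : ℝ => max (t - δ) 0) c - c
      = cfc (fun t : ℝ => max (t - δ) 0 - t) c := by
    rw [cfc_sub (fun t : ℝ => max (t - δ) 0) (fun t : ℝ => t) c, cfc_id' ℝ c]
  rw [h1]
  apply norm_cfc_le hδ
  intro t ht
  have ht0 : 0 ≤ t := spectrum_nonneg_of_nonneg hc ht
  rw [Real.norm_eq_abs, abs_le]
  constructor
  · rcases le_total (t - δ) 0 with h | h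
    · rw [max_eq_right h]; linarith
    · rw [max_eq_left h]; linarith
  · rcases le_total (t - δ) 0 with h | h
    · rw [max_eq_right h]; linarith
    · rw [max_eq_left h]; linarith

/-- If a positive element `c` is within `δ` of a closed two-sided ideal `J`,
then `(c - δ)_+` belongs to `J`. -/
theorem cut_mem_of_norm_sub_le (J : TwoSidedIdeal A) (hJ : IsClosed (J : Set A))
    {c j : A} (hc : 0 ≤ c) (hj : j ∈ J) {δ : ℝ} (hδ : ‖c - j‖ ≤ δ) : cut δ c ∈ J := by
  have hsa : IsSelfAdjoint c := hc.isSelfAdjoint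
  set j' : A := (1 / 2 : ℝ) • (j + star j) with hj'
  have hj'mem : j' ∈ J := real_smul_mem J _ (J.add_mem hj (star_mem_of_mem J hJ hj))
  have hj'sa : IsSelfAdjoint j' := by
    rw [hj']
    apply IsSelfAdjoint.smul (by rfl)
    exact IsSelfAdjoint.add_star_self j
  have hu : c - j' = (1 / 2 : ℝ) • ((c - j) + star (c - j)) := by
    rw [hj', star_sub, hsa.star_eq]
    module
  have husa : IsSelfAdjoint (c - j') := hsa.sub hj'sa
  have hunorm : ‖c - j'‖ ≤ δ := by
    rw [hu, norm_smul]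
    have h1 : ‖(c - j) + star (c - j)‖ ≤ ‖c - j‖ + ‖c - j‖ := by
      calc ‖(c - j) + star (c - j)‖ ≤ ‖c - j‖ + ‖star (c - j)‖ := norm_add_le _ _
        _ = ‖c - j‖ + ‖c - j‖ := by rw [norm_star]
    have h2 : ‖(1 / 2 : ℝ)‖ = 1 / 2 := by norm_num
    rw [h2]
    nlinarith [norm_nonneg ((c - j) + star (c - j))]
  have hle : c - algebraMap ℝ A δ ≤ j' := by
    have h1 : c - j' ≤ algebraMap ℝ A ‖c - j'‖ := husa.le_algebraMap_norm_self
    have h2 : algebraMap ℝ A ‖c - j'‖ ≤ algebraMap ℝ A δ := algebraMap_mono A hunorm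
    have h3 : c - j' ≤ algebraMap ℝ A δ := h1.trans h2
    have h4 : c - algebraMap ℝ A δ = (c - j') - algebraMap ℝ A δ + j' := by abel
    rw [h4]
    have h5 : c - j' - algebraMap ℝ A δ ≤ 0 := sub_nonpos.mpr h3
    calc c - j' - algebraMap ℝ A δ + j' ≤ 0 + j' := add_le_add h5 le_rfl
      _ = j' := zero_add _
  set g : A := cfc (fun t : ℝ => Real.sqrt (max (t - δ) 0)) c with hg
  have hgsa : star g = g := by
    have : IsSelfAdjoint g := cfc_predicate _ _
    exact this
  have hconj := star_left_conjugate_le_conjugate hle g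
  rw [hgsa] at hconj
  have hcd : c - algebraMap ℝ A δ = cfc (fun t : ℝ => t - δ) c := by
    rw [cfc_sub (fun t : ℝ => t) (fun _ : ℝ => δ) c, cfc_id' ℝ c, cfc_const δ c]
  have hlhs : g * (c - algebraMap ℝ A δ) * g = star (cut δ c) * cut δ c := by
    have hcutsa : star (cut δ c) = cut δ c := (cut_nonneg δ c).isSelfAdjoint
    rw [hcutsa, hcd, hg]
    unfold cut
    rw [← cfc_mul (fun t : ℝ => Real.sqrt (max (t - δ) 0)) (fun t : ℝ => t - δ) c,
      ← cfc_mul (fun t : ℝ => Real.sqrt (max (t - δ) 0) * (t - δ))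
        (fun t : ℝ => Real.sqrt (max (t - δ) 0)) c,
      ← cfc_mul (fun t : ℝ => max (t - δ) 0) (fun t : ℝ => max (t - δ) 0) c]
    apply cfc_congr
    intro t _
    simp only
    rcases le_total (t - δ) 0 with h | h
    · rw [max_eq_right h]; simp
    · rw [max_eq_left h]
      have := Real.mul_self_sqrt h
      nlinarith [Real.sqrt_nonneg (t - δ)]
  rw [hlhs] at hconj
  exact mem_of_star_mul_self_le J hJ (J.mul_mem_right _ _ (J.mul_mem_left _ _ hj'mem)) hconj

end Vale.Agent.H36.PI
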