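import Vale.Agent.H36.PI.NonUnital

/-!
# Further functional-calculus cut-downs

Order and norm estimates for the cut-downs `(c - τ)_+` and `(τ - c)_+` of a positive element,
a norm-controlled comparison lemma, and a one-sided cut-off estimate.
-/

set_option linter.unusedSectionVars false

namespace Vale.Agent.H36.PI

variable {A : Type*} [CStarAlgebra A] [PartialOrder A] [StarOrderedRing A]

/-- The cut-down `(τ - c)_+`. -/
noncomputable def ncut (τ : ℝ) (c : A) : A := cfc (fun t : ℝ => max (τ - t) 0) c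

theorem ncut_selfAdjoint (τ : ℝ) (c : A) : IsSelfAdjoint (ncut τ c) := by
  unfold ncut; exact cfc_predicate _ _

theorem cut_selfAdjoint (τ : ℝ) (c : A) : IsSelfAdjoint (cut τ c) :=
  (cut_nonneg τ c).isSelfAdjoint

theorem cut_le_self {δ : ℝ} (hδ : 0 ≤ δ) {c : A} (hc : 0 ≤ c) : cut δ c ≤ c := by
  have hsa : IsSelfAdjoint c := hc.isSelfAdjoint
  have h : cfc (fun t : ℝ => max (t - δ) 0) c ≤ cfc (fun t : ℝ => t) c := by
    refine cfc_mono (fun t ht => ?_)
    have ht0 : 0 ≤ t := spectrum_nonneg_of_nonneg hc ht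
    exact max_le (by linarith) ht0
  rw [cfc_id' ℝ c] at h
  exact h

theorem cut_mem (J : TwoSidedIdeal A) (hJ : IsClosed (J : Set A)) {δ : ℝ} (hδ : 0 ≤ δ) {c : A}
    (hc : 0 ≤ c) (hcJ : c ∈ J) : cut δ c ∈ J :=
  mem_of_nonneg_of_le J hJ (cut_nonneg δ c) (cut_le_self hδ hc) hcJ

theorem cut_anti {δ δ' : ℝ} (h : δ ≤ δ') (c : A) : cut δ' c ≤ cut δ c := by
  unfold cut
  refine cfc_mono (fun t _ => ?_)
  exact max_le_max (by linarith) le_rfl

theorem le_add_cut {c : A} (hc : IsSelfAdjoint c) (γ : ℝ) :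
    c ≤ algebraMap ℝ A γ + cut γ c := by
  have h : cfc (fun t : ℝ => t) c ≤ cfc (fun t : ℝ => γ + max (t - γ) 0) c := by
    refine cfc_mono (fun t _ => ?_)
    have := le_max_left (t - γ) 0
    linarith
  rw [cfc_id' ℝ c, cfc_add c (fun _ : ℝ => γ) (fun t : ℝ => max (t - γ) 0), cfc_const γ c] at h
  exact h

/-- If `c - δ ≤ j` with `j` in a closed two-sided ideal `J`, then `(c - δ)_+ ∈ J`. -/
theorem cut_mem_of_sub_le (J : TwoSidedIdeal A) (hJ : IsClosed (J : Set A))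
    {c j : A} (hc : 0 ≤ c) (hj : j ∈ J) {δ : ℝ} (hle : c - algebraMap ℝ A δ ≤ j) :
    cut δ c ∈ J := by
  have hsa : IsSelfAdjoint c := hc.isSelfAdjoint
  set g : A := cfc (fun t : ℝ => Real.sqrt (max (t - δ) 0)) c with hg
  have hgsa : star g = g := by
    have : IsSelfAdjoint g := cfc_predicate _ _
    exact this
  have hconj := star_left_conjugate_le_conjugate hle g
  rw [hgsa] at hconj
  have hcd : c - algebraMap ℝ A δ = cfc (fun t : ℝ => t - δ) c := by
    rw [cfc_sub (fun t : ℝ => t) (fun _ : ℝ => δ) c, cfc_id' ℝ c, cfc_const δ c]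
  have hlhs : g * (c - algebraMap ℝ A δ) * g = star (cut δ c) * cut δ c := by
    have hcutsa : star (cut δ c) = cut δ c := (cut_nonneg δ c).isSelfAdjoint
    rw [hcutsa, hcd, hg]
    unfold cut
    rw [← cfc_mul (fun t : ℝ => Real.sqrt (max (t - δ) 0)) (fun t : ℝ => t - δ) c,
      ← cfc_mul (fun t : ℝ => Real.sqrt (max (t - δ) 0) * (t - δ))
        (fun t : ℝ => Real.sqrt (max (t - δ) 0)) c,
      ← cfc_mul (fun t : ℝ => max (t - δ) 0) (fun t : ℝ => max (t - δ) 0) c]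
    apply cfc_congr
    intro t _
    simp only
    rcases le_total (t - δ) 0 with h | h
    · rw [max_eq_right h]; simp
    · rw [max_eq_left h]
      have := Real.mul_self_sqrt h
      nlinarith [Real.sqrt_nonneg (t - δ)]
  rw [hlhs] at hconj
  exact mem_of_star_mul_self_le J hJ (J.mul_mem_right _ _ (J.mul_mem_left _ _ hj)) hconj

/-- Cut-downs are compatible with congruence modulo a closed ideal. -/
theorem cut_mem_of_sub_mem (J : TwoSidedIdeal A) (hJ : IsClosed (J : Set A)) {a b : A}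
    (ha : 0 ≤ a) (hb : IsSelfAdjoint b) (hab : a - b ∈ J) {γ : ℝ} (hγ : cut γ b ∈ J) :
    cut γ a ∈ J := by
  apply cut_mem_of_sub_le J hJ ha (J.add_mem hab hγ)
  have h1 := le_add_cut hb γ
  have h2 : a - algebraMap ℝ A γ = (a - b) + (b - algebraMap ℝ A γ) := by abel
  rw [h2]
  apply add_le_add le_rfl
  rw [sub_le_iff_le_add']
  exact h1

theorem exists_cut_not_mem (J : TwoSidedIdeal A) (hJ : IsClosed (J : Set A)) {b : A}
    (hb : 0 ≤ b) (hbJ : b ∉ J) : ∃ γ : ℝ, 0 < γ ∧ cut γ b ∉ J := by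
  by_contra hcon
  apply hbJ
  have hcl : b ∈ closure (J : Set A) := by
    rw [Metric.mem_closure_iff]
    intro ε hε
    refine ⟨cut (ε / 2) b, ?_, ?_⟩
    · by_contra h
      exact hcon ⟨ε / 2, by positivity, h⟩
    · rw [dist_comm, dist_eq_norm]
      have := norm_cut_sub_le (by positivity : (0 : ℝ) ≤ ε / 2) hb
      linarith
  rwa [hJ.closure_eq] at hcl

theorem norm_cut_sub_cut_le {c : A} (hc : IsSelfAdjoint c) (τ τ' : ℝ) :
    ‖cut τ c - cut τ' c‖ ≤ |τ - τ'| := by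
  unfold cut
  rw [← cfc_sub (fun t : ℝ => max (t - τ) 0) (fun t : ℝ => max (t - τ') 0) c]
  apply norm_cfc_le (abs_nonneg _)
  intro t _
  rw [Real.norm_eq_abs]
  calc |max (t - τ) 0 - max (t - τ') 0| ≤ |(t - τ) - (t - τ')| :=
        abs_max_sub_max_le_abs (t - τ) (t - τ') 0
    _ = |τ - τ'| := by rw [← abs_neg]; congr 1; ring

theorem norm_ncut_sub_ncut_le {c : A} (hc : IsSelfAdjoint c) (τ τ' : ℝ) :
    ‖ncut τ c - ncut τ' c‖ ≤ |τ - τ'| := by
  unfold ncut
  rw [← cfc_sub (fun t : ℝ => max (τ - t) 0) (fun t : ℝ => max (τ' - t) 0) c]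
  apply norm_cfc_le (abs_nonneg _)
  intro t _
  rw [Real.norm_eq_abs]
  calc |max (τ - t) 0 - max (τ' - t) 0| ≤ |(τ - t) - (τ' - t)| :=
        abs_max_sub_max_le_abs (τ - t) (τ' - t) 0
    _ = |τ - τ'| := by congr 1; ring

theorem ncut_mul_mul_cut {c : A} (hc : IsSelfAdjoint c) (τ : ℝ) :
    ncut τ c * c * cut τ c = 0 := by
  unfold ncut cut
  rw [cfc_mul_id _ c (by fun_prop) hc,
    ← cfc_mul (fun t : ℝ => max (τ - t) 0 * t) (fun t : ℝ => max (t - τ) 0) c,
    ← cfc_const_zero ℝ c]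
  apply cfc_congr
  intro t _
  simp only
  rcases le_total t τ with h | h
  · rw [max_eq_right (by linarith : t - τ ≤ 0)]; simp
  · rw [max_eq_right (by linarith : τ - t ≤ 0)]; simp

theorem sub_algebraMap_eq {c : A} (hc : IsSelfAdjoint c) (τ : ℝ) :
    c - algebraMap ℝ A τ = cut τ c - ncut τ c := by
  unfold cut ncut
  rw [← cfc_sub (fun t : ℝ => max (t - τ) 0) (fun t : ℝ => max (τ - t) 0) c]
  have h : c - algebraMap ℝ A τ = cfc (fun t : ℝ => t - τ) c := by
    rw [cfc_sub (fun t : ℝ => t) (fun _ : ℝ => τ) c, cfc_id' ℝ c, cfc_const τ c]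
  rw [h]
  apply cfc_congr
  intro t _
  simp only
  rcases le_total t τ with h | h
  · rw [max_eq_right (by linarith : t - τ ≤ 0), max_eq_left (by linarith : 0 ≤ τ - t)]; ring
  · rw [max_eq_left (by linarith : 0 ≤ t - τ), max_eq_right (by linarith : τ - t ≤ 0)]; ring

theorem cut_mem_of_mul_cut_mem (J : TwoSidedIdeal A) (hJ : IsClosed (J : Set A)) {c : A}
    (hc : 0 ≤ c) {τ : ℝ} (hτ : 0 ≤ τ) (h : c * cut τ c ∈ J) : cut τ c ∈ J := by
  have hsa : IsSelfAdjoint c := hc.isSelfAdjoint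
  apply mem_of_star_mul_self_le J hJ h
  rw [(cut_selfAdjoint τ c).star_eq]
  unfold cut
  rw [cfc_id_mul _ c (by fun_prop) hsa,
    ← cfc_mul (fun t : ℝ => max (t - τ) 0) (fun t : ℝ => max (t - τ) 0) c]
  refine cfc_mono (fun t ht => ?_)
  have ht0 : 0 ≤ t := spectrum_nonneg_of_nonneg hc ht
  rcases le_total (t - τ) 0 with h | h
  · rw [max_eq_right h]; simp
  · rw [max_eq_left h]; nlinarith

theorem cut_mem_of_norm_le (J : TwoSidedIdeal A) (hJ : IsClosed (J : Set A)) {c : A} (hc : 0 ≤ c)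
    {τ : ℝ} (h : ‖c‖ ≤ τ) : cut τ c ∈ J := by
  apply cut_mem_of_sub_le J hJ hc J.zero_mem
  have h1 : c ≤ algebraMap ℝ A ‖c‖ := hc.isSelfAdjoint.le_algebraMap_norm_self
  have h2 : algebraMap ℝ A ‖c‖ ≤ algebraMap ℝ A τ := algebraMap_mono A h
  exact sub_nonpos.mpr (h1.trans h2)

/-! ### Norm-controlled comparison -/

/-- `sqrt ((t - γ)_+ / max t γ)` applied to `b`. -/
noncomputable def kfun (γ : ℝ) (b : A) : A :=
  cfc (fun t : ℝ => Real.sqrt (max (t - γ) 0 / max t γ)) b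

theorem kfun_selfAdjoint (γ : ℝ) (b : A) : IsSelfAdjoint (kfun γ b) := by
  unfold kfun; exact cfc_predicate _ _

theorem continuousOn_kfun {γ : ℝ} (hγ : 0 < γ) (s : Set ℝ) :
    ContinuousOn (fun t : ℝ => Real.sqrt (max (t - γ) 0 / max t γ)) s := by
  apply Real.continuous_sqrt.comp_continuousOn
  apply ContinuousOn.div (by fun_prop) (by fun_prop)
  intro t _
  have : γ ≤ max t γ := le_max_right _ _
  positivity

theorem kfun_conj {γ : ℝ} (hγ : 0 < γ) {b : A} (hb : 0 ≤ b) :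
    kfun γ b * b * kfun γ b = cut γ b := by
  have hsa : IsSelfAdjoint b := hb.isSelfAdjoint
  have hc := continuousOn_kfun hγ (spectrum ℝ b)
  unfold kfun cut
  rw [cfc_mul_id _ b hc hsa,
    ← cfc_mul (fun t : ℝ => Real.sqrt (max (t - γ) 0 / max t γ) * t)
      (fun t : ℝ => Real.sqrt (max (t - γ) 0 / max t γ)) b (by fun_prop)]
  apply cfc_congr
  intro t ht
  have ht0 : 0 ≤ t := spectrum_nonneg_of_nonneg hb ht
  simp only
  rcases le_total (t - γ) 0 with h | h
  · rw [max_eq_right h]; simp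
  · have htγ : γ ≤ t := by linarith
    have htpos : 0 < t := lt_of_lt_of_le hγ htγ
    rw [max_eq_left h, max_eq_left htγ]
    have hnn : 0 ≤ (t - γ) / t := div_nonneg h htpos.le
    have hs := Real.mul_self_sqrt hnn
    calc Real.sqrt ((t - γ) / t) * t * Real.sqrt ((t - γ) / t)
        = (Real.sqrt ((t - γ) / t) * Real.sqrt ((t - γ) / t)) * t := by ring
      _ = (t - γ) / t * t := by rw [hs]
      _ = t - γ := by field_simp

theorem kfun_sq_le {γ : ℝ} (hγ : 0 < γ) {b : A} (hb : 0 ≤ b) :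
    kfun γ b * kfun γ b ≤ γ⁻¹ • cut γ b := by
  have hsa : IsSelfAdjoint b := hb.isSelfAdjoint
  have hc := continuousOn_kfun hγ (spectrum ℝ b)
  unfold kfun cut
  rw [← cfc_mul (fun t : ℝ => Real.sqrt (max (t - γ) 0 / max t γ))
      (fun t : ℝ => Real.sqrt (max (t - γ) 0 / max t γ)) b,
    ← cfc_const_mul γ⁻¹ (fun t : ℝ => max (t - γ) 0) b]
  refine cfc_mono (fun t ht => ?_)
  have hm : 0 ≤ max (t - γ) 0 := le_max_right _ _
  have hM : γ ≤ max t γ := le_max_right _ _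
  have hMpos : 0 < max t γ := lt_of_lt_of_le hγ hM
  rw [Real.mul_self_sqrt (div_nonneg hm hMpos.le), div_eq_inv_mul]
  exact mul_le_mul_of_nonneg_right (inv_anti₀ hγ hM) hm

/-- Norm-controlled comparison: an element implementing `e ≾ (b - γ)_+` yields an element of
controlled norm implementing `e ≾ b`. -/
theorem kfun_bound {γ : ℝ} (hγ : 0 < γ) {b : A} (hb : 0 ≤ b) (d₀ : A) :
    star (kfun γ b * d₀) * b * (kfun γ b * d₀) = star d₀ * cut γ b * d₀ ∧
      ‖kfun γ b * d₀‖ ^ 2 ≤ γ⁻¹ * ‖star d₀ * cut γ b * d₀‖ := by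
  have hk : star (kfun γ b) = kfun γ b := kfun_selfAdjoint γ b
  constructor
  · rw [star_mul, hk, ← kfun_conj hγ hb]; noncomm_ring
  · have h1 : ‖kfun γ b * d₀‖ ^ 2 = ‖star d₀ * (kfun γ b * kfun γ b) * d₀‖ := by
      rw [sq, ← CStarRing.norm_star_mul_self, star_mul, hk]
      congr 1; noncomm_ring
    have h2 : star d₀ * (kfun γ b * kfun γ b) * d₀ ≤ star d₀ * (γ⁻¹ • cut γ b) * d₀ :=
      star_left_conjugate_le_conjugate (kfun_sq_le hγ hb) d₀
    have h3 : 0 ≤ star d₀ * (kfun γ b * kfun γ b) * d₀ := by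
      have : star d₀ * (kfun γ b * kfun γ b) * d₀ = star (kfun γ b * d₀) * (kfun γ b * d₀) := by
        rw [star_mul, hk]; noncomm_ring
      rw [this]; exact star_mul_self_nonneg _
    have h4 : star d₀ * (γ⁻¹ • cut γ b) * d₀ = γ⁻¹ • (star d₀ * cut γ b * d₀) := by
      rw [mul_smul_comm, smul_mul_assoc]
    rw [h1]
    calc ‖star d₀ * (kfun γ b * kfun γ b) * d₀‖ ≤ ‖star d₀ * (γ⁻¹ • cut γ b) * d₀‖ :=
          CStarAlgebra.norm_le_norm_of_nonneg_of_le h3 h2
      _ = γ⁻¹ * ‖star d₀ * cut γ b * d₀‖ := by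
          rw [h4, norm_smul, Real.norm_eq_abs, abs_of_pos (inv_pos.mpr hγ)]

/-! ### One-sided cut-off -/

theorem norm_mul_one_sub_psi {δ : ℝ} (hδ : 0 < δ) (Z : A) :
    ‖Z * (1 - psi δ (star Z * Z))‖ ^ 2 ≤ δ := by
  set q : A := star Z * Z with hq
  have hq0 : 0 ≤ q := star_mul_self_nonneg Z
  have hsa : IsSelfAdjoint q := hq0.isSelfAdjoint
  have hg : 1 - psi δ q = cfc (fun t : ℝ => 1 - min (t / δ) 1) q := by
    unfold psi
    rw [cfc_sub (fun _ : ℝ => (1 : ℝ)) (fun t : ℝ => min (t / δ) 1) q, cfc_const_one ℝ q]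
  have hgsa : star (1 - psi δ q) = 1 - psi δ q := by
    rw [star_sub, star_one, (psi_selfAdjoint δ q).star_eq]
  have h1 : ‖Z * (1 - psi δ q)‖ ^ 2 = ‖(1 - psi δ q) * q * (1 - psi δ q)‖ := by
    rw [sq, ← CStarRing.norm_star_mul_self, star_mul, hgsa, hq]
    congr 1; noncomm_ring
  have h2 : (1 - psi δ q) * q * (1 - psi δ q)
      = cfc (fun t : ℝ => (1 - min (t / δ) 1) * t * (1 - min (t / δ) 1)) q := by
    rw [hg, cfc_mul_id _ q (by fun_prop) hsa,
      ← cfc_mul (fun t : ℝ => (1 - min (t / δ) 1) * t) (fun t : ℝ => 1 - min (t / δ) 1) q]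
  rw [h1, h2]
  apply norm_cfc_le hδ.le
  intro t ht
  have ht0 : 0 ≤ t := spectrum_nonneg_of_nonneg hq0 ht
  rw [Real.norm_eq_abs]
  rcases le_total t δ with hle | hle
  · have hm : min (t / δ) 1 = t / δ := min_eq_left ((div_le_one hδ).mpr hle)
    rw [hm]
    have h3 : 0 ≤ t / δ := by positivity
    have h4 : t / δ ≤ 1 := (div_le_one hδ).mpr hle
    have hv0 : 0 ≤ 1 - t / δ := by linarith
    have hv1 : 1 - t / δ ≤ 1 := by linarith
    have h5 : 0 ≤ (1 - t / δ) * t * (1 - t / δ) := mul_nonneg (mul_nonneg hv0 ht0) hv0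
    have h6 : (1 - t / δ) * t * (1 - t / δ) ≤ 1 * t * 1 := by gcongr
    rw [abs_of_nonneg h5]; linarith
  · have hm : min (t / δ) 1 = 1 := min_eq_right ((one_le_div hδ).mpr hle)
    rw [hm]
    simpa using hδ.le

theorem psi_eq_mul {ε : ℝ} (hε : 0 < ε) {h : A} (hh : 0 ≤ h) :
    psi ε h = cfc (fun t : ℝ => 1 / max t ε) h * h := by
  have hsa : IsSelfAdjoint h := hh.isSelfAdjoint
  rw [cfc_mul_id _ h (continuousOn_inv_max hε _) hsa]
  unfold psi
  apply cfc_congr
  intro t ht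
  have ht0 : 0 ≤ t := spectrum_nonneg_of_nonneg hh ht
  simp only
  rcases le_total t ε with hle | hle
  · rw [max_eq_right hle, min_eq_left ((div_le_one hε).mpr hle)]
    field_simp
  · have htpos : 0 < t := lt_of_lt_of_le hε hle
    rw [max_eq_left hle, min_eq_right ((one_le_div hε).mpr hle)]
    field_simp

theorem conj_sq_nonneg {x : A} (hx : IsSelfAdjoint x) (a : A) : 0 ≤ star a * (x * x) * a := by
  have : star a * (x * x) * a = star (x * a) * (x * a) := by
    rw [star_mul, hx.star_eq]; noncomm_ring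
  rw [this]; exact star_mul_self_nonneg _

end Vale.Agent.H36.PI
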