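import Vale.Agent.H36.PI.Ideals

/-!
# Square-zero elements outside a prime ideal

Let `M` be a closed two-sided ideal that is prime, `ψ` a self-adjoint element and
`D = {T | ψ T = T = T ψ}`. If the ambient algebra is pi-`n` and `c ∈ D` is positive with `c ∉ M`,
then `D` contains a square-zero element not in `M`.
-/

set_option linter.unusedSectionVars false

namespace Vale.Agent.H36.PI

variable {A : Type*} [CStarAlgebra A]

/-- `T` is supported under `ψ` on both sides. -/
def InD (ψ T : A) : Prop := ψ * T = T ∧ T * ψ = T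

namespace InD

variable {ψ : A}

theorem zero : InD ψ (0 : A) := ⟨mul_zero _, zero_mul _⟩

theorem add {S T : A} (hS : InD ψ S) (hT : InD ψ T) : InD ψ (S + T) :=
  ⟨by rw [mul_add, hS.1, hT.1], by rw [add_mul, hS.2, hT.2]⟩

theorem sub {S T : A} (hS : InD ψ S) (hT : InD ψ T) : InD ψ (S - T) :=
  ⟨by rw [mul_sub, hS.1, hT.1], by rw [sub_mul, hS.2, hT.2]⟩

theorem rsmul {T : A} (t : ℝ) (hT : InD ψ T) : InD ψ (t • T) :=
  ⟨by rw [mul_smul_comm, hT.1], by rw [smul_mul_assoc, hT.2]⟩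

theorem mul {S T : A} (hS : InD ψ S) (hT : InD ψ T) : InD ψ (S * T) :=
  ⟨by rw [← mul_assoc, hS.1], by rw [mul_assoc, hT.2]⟩

theorem mul_mul {S T : A} (hS : InD ψ S) (hT : InD ψ T) (x : A) : InD ψ (S * x * T) :=
  ⟨by rw [← mul_assoc, ← mul_assoc, hS.1], by rw [mul_assoc, hT.2]⟩

theorem star {T : A} (hψ : IsSelfAdjoint ψ) (hT : InD ψ T) : InD ψ (star T) := by
  constructor
  · have := congrArg Star.star hT.2
    rwa [star_mul, hψ.star_eq] at this
  · have := congrArg Star.star hT.1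
    rwa [star_mul, hψ.star_eq] at this

theorem mem {T : A} (B : TwoSidedIdeal A) (hψB : ψ ∈ B) (hT : InD ψ T) : T ∈ B := by
  rw [← hT.1]
  exact B.mul_mem_right _ _ hψB

/-- If `ψ` fixes `a * p` where `p` is self-adjoint and `p * p = a * p`, then it fixes `p`. -/
theorem of_sq {a p : A} (hψ : IsSelfAdjoint ψ) (ha : InD ψ a) (hp : IsSelfAdjoint p)
    (hpp : p * p = a * p) : InD ψ p := by
  have h1 : ψ * p = p := by
    have h2 : (ψ * p - p) * Star.star (ψ * p - p) = 0 := by
      rw [star_sub, star_mul, hp.star_eq, hψ.star_eq]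
      have e1 : (ψ * p - p) * (p * ψ - p) = (ψ * (p * p) - p * p) * ψ - (ψ * (p * p) - p * p) := by
        noncomm_ring
      rw [e1, hpp, ← mul_assoc, ha.1, sub_self, zero_mul, sub_zero]
    have h3 : ψ * p - p = 0 := by
      rwa [CStarRing.mul_star_self_eq_zero_iff] at h2
    exact sub_eq_zero.mp h3
  refine ⟨h1, ?_⟩
  have := congrArg Star.star h1
  rwa [star_mul, hp.star_eq, hψ.star_eq] at this

end InD

variable [PartialOrder A] [StarOrderedRing A]

theorem InD.posPart {ψ a : A} (hψ : IsSelfAdjoint ψ) (ha : InD ψ a) (hasa : IsSelfAdjoint a) :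
    InD ψ a⁺ := by
  apply InD.of_sq hψ ha (CFC.posPart_nonneg a).isSelfAdjoint
  have h1 := CFC.posPart_sub_negPart a hasa
  have h2 := CFC.negPart_mul_posPart a
  calc a⁺ * a⁺ = (a⁺ - a⁻) * a⁺ := by rw [sub_mul, h2, sub_zero]
    _ = a * a⁺ := by rw [h1]

theorem InD.negPart {ψ a : A} (hψ : IsSelfAdjoint ψ) (ha : InD ψ a) (hasa : IsSelfAdjoint a) :
    InD ψ a⁻ := by
  have h := InD.posPart hψ (InD.sub InD.zero ha) (by simpa using hasa.neg)
  rw [zero_sub, CFC.posPart_neg] at h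
  exact h

/-! ### Consequences of the absence of square-zero elements outside `M` -/

section NoSquareZero

variable (B : TwoSidedIdeal A) (hB : IsClosed (B : Set A)) (hch : ChainIn B)
  (M : TwoSidedIdeal A) (hM : IsClosed (M : Set A))
  {ψ : A} (hψ : IsSelfAdjoint ψ) (hψB : ψ ∈ B)
  (hNZ : ∀ T : A, InD ψ T → T * T = 0 → T ∈ M)

include hB hch hM hψ hψB hNZ

theorem orth_mem {p q : A} (hp : 0 ≤ p) (hq : 0 ≤ q) (hpD : InD ψ p) (hqD : InD ψ q)
    (hpq : p * q = 0) : p ∈ M ∨ q ∈ M := by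
  by_cases h : ∀ x : A, p * x * q ∈ M
  · exact prime_of_chain B hB hch M hM hp hq (hpD.mem B hψB) (hqD.mem B hψB) h
  · exfalso
    rw [not_forall] at h
    obtain ⟨x, hx⟩ := h
    apply hx
    apply hNZ _ (hpD.mul_mul hqD x)
    have hqp : q * p = 0 := by
      have := congrArg Star.star hpq
      rwa [star_mul, hp.isSelfAdjoint.star_eq, hq.isSelfAdjoint.star_eq, star_zero] at this
    calc p * x * q * (p * x * q) = p * x * (q * p) * x * q := by noncomm_ring
      _ = 0 := by rw [hqp]; simp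

theorem split_mem {a : A} (hasa : IsSelfAdjoint a) (haD : InD ψ a) : a⁺ ∈ M ∨ a⁻ ∈ M :=
  orth_mem B hB hch M hM hψ hψB hNZ (CFC.posPart_nonneg a) (CFC.negPart_nonneg a)
    (haD.posPart hψ hasa) (haD.negPart hψ hasa) (CFC.posPart_mul_negPart a)

theorem scalar_sa {c : A} (hc : 0 ≤ c) (hcD : InD ψ c) {z : A} (hz : IsSelfAdjoint z) :
    ∃ t : ℝ, c * z * c - t • (c * c) ∈ M := by
  have hcsa : IsSelfAdjoint c := hc.isSelfAdjoint
  set F : ℝ → A := fun t => c * z * c - t • (c * c) with hF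
  have hFcont : Continuous F := by
    rw [hF]; fun_prop
  have hFsa : ∀ t, IsSelfAdjoint (F t) := by
    intro t
    rw [hF]
    apply IsSelfAdjoint.sub
    · have := hz.conjugate c
      rwa [hcsa.star_eq] at this
    · have hcc : IsSelfAdjoint (c * c) := by
        rw [IsSelfAdjoint, star_mul, hcsa.star_eq]
      exact IsSelfAdjoint.smul (by rfl) hcc
  have hFD : ∀ t, InD ψ (F t) := fun t =>
    (hcD.mul_mul hcD z).sub ((hcD.mul hcD).rsmul t)
  have hFeq : ∀ t, F t = c * (z - algebraMap ℝ A t) * c := by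
    intro t
    rw [hF, Algebra.algebraMap_eq_smul_one]
    simp only [mul_sub, sub_mul, mul_smul_comm, smul_mul_assoc, mul_one]
  have hpos : Continuous (fun t => (F t)⁺) := by
    have := Continuous.cfcₙ_of_mem_nhdsSet (𝕜 := ℝ) (s := Set.univ) (fun x : ℝ => x⁺) (a := F)
      Filter.univ_mem hFcont hFsa (by fun_prop) (by simp)
    exact this
  have hneg : Continuous (fun t => (F t)⁻) := by
    have := Continuous.cfcₙ_of_mem_nhdsSet (𝕜 := ℝ) (s := Set.univ) (fun x : ℝ => x⁻) (a := F)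
      Filter.univ_mem hFcont hFsa (by fun_prop) (by simp)
    exact this
  have hcl1 : IsClosed {t : ℝ | (F t)⁻ ∈ M} := hM.preimage hneg
  have hcl2 : IsClosed {t : ℝ | (F t)⁺ ∈ M} := hM.preimage hpos
  have hcover : (Set.univ : Set ℝ) ⊆ {t : ℝ | (F t)⁻ ∈ M} ∪ {t : ℝ | (F t)⁺ ∈ M} := by
    intro t _
    rcases split_mem B hB hch M hM hψ hψB hNZ (hFsa t) (hFD t) with h | h
    · exact Or.inr h
    · exact Or.inl h
  have hne1 : ((Set.univ : Set ℝ) ∩ {t : ℝ | (F t)⁻ ∈ M}).Nonempty := by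
    refine ⟨-‖z‖, Set.mem_univ _, ?_⟩
    have h1 : 0 ≤ F (-‖z‖) := by
      rw [hFeq]
      have h2 : 0 ≤ z - algebraMap ℝ A (-‖z‖) := by
        rw [map_neg, sub_neg_eq_add, ← neg_le_iff_add_nonneg]
        exact hz.neg_algebraMap_norm_le_self
      have h3 := star_left_conjugate_le_conjugate h2 c
      rwa [hcsa.star_eq, mul_zero, zero_mul] at h3
    have h4 : (F (-‖z‖))⁻ = 0 := (CFC.negPart_eq_zero_iff _ (hFsa _)).mpr h1
    show (F (-‖z‖))⁻ ∈ M
    rw [h4]; exact M.zero_mem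
  have hne2 : ((Set.univ : Set ℝ) ∩ {t : ℝ | (F t)⁺ ∈ M}).Nonempty := by
    refine ⟨‖z‖, Set.mem_univ _, ?_⟩
    have h1 : F ‖z‖ ≤ 0 := by
      rw [hFeq]
      have h2 : z - algebraMap ℝ A ‖z‖ ≤ 0 := by
        rw [sub_nonpos]
        exact hz.le_algebraMap_norm_self
      have h3 := star_left_conjugate_le_conjugate h2 c
      rwa [hcsa.star_eq, mul_zero, zero_mul] at h3
    have h4 : (F ‖z‖)⁺ = 0 := (CFC.posPart_eq_zero_iff _ (hFsa _)).mpr h1
    show (F ‖z‖)⁺ ∈ M
    rw [h4]; exact M.zero_mem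
  obtain ⟨t, -, ht1, ht2⟩ := isPreconnected_closed_iff.mp isPreconnected_univ _ _ hcl1 hcl2
    hcover hne1 hne2
  refine ⟨t, ?_⟩
  have h5 := CFC.posPart_sub_negPart (F t) (hFsa t)
  have h6 : (F t)⁺ - (F t)⁻ ∈ M := M.sub_mem ht2 ht1
  rw [h5] at h6
  exact h6

theorem scalar {c : A} (hc : 0 ≤ c) (hcD : InD ψ c) (z : A) :
    ∃ μ : ℂ, c * z * c - μ • (c * c) ∈ M := by
  obtain ⟨t₁, h₁⟩ := scalar_sa B hB hch M hM hψ hψB hNZ hc hcD (realPart z).2
  obtain ⟨t₂, h₂⟩ := scalar_sa B hB hch M hM hψ hψB hNZ hc hcD (imaginaryPart z).2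
  refine ⟨(t₁ : ℂ) + Complex.I * (t₂ : ℂ), ?_⟩
  have hz := realPart_add_I_smul_imaginaryPart z
  have h3 : c * z * c - ((t₁ : ℂ) + Complex.I * (t₂ : ℂ)) • (c * c)
      = (c * (realPart z : A) * c - t₁ • (c * c))
        + Complex.I • (c * (imaginaryPart z : A) * c - t₂ • (c * c)) := by
    conv_lhs => rw [← hz]
    rw [add_smul, mul_smul, Complex.coe_smul, Complex.coe_smul]
    simp only [mul_add, add_mul, mul_smul_comm, smul_mul_assoc, smul_sub]
    abel
  rw [h3]
  exact M.add_mem h₁ (complex_smul_mem M _ h₂)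

end NoSquareZero

/-! ### The Gram identity and the main contradiction -/

omit [PartialOrder A] [StarOrderedRing A] in
theorem gram_identity {ι κ : Type} [Fintype ι] [Fintype κ] (x : κ → ι → A) (α : ι → ℂ) (d : A) :
    ∑ k, star (∑ i, α i • x k i) * d * (∑ j, α j • x k j)
      = ∑ i, ∑ j, (star (α i) * α j) • ∑ k, star (x k i) * d * x k j := by
  simp only [star_sum, star_smul, Finset.sum_mul, Finset.mul_sum, smul_mul_assoc, mul_smul_comm,
    smul_smul, Finset.smul_sum]
  rw [Finset.sum_comm]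
  conv_rhs => rw [Finset.sum_comm]
  refine Finset.sum_congr rfl fun j _ => ?_
  rw [Finset.sum_comm]
  refine Finset.sum_congr rfl fun i _ => ?_
  refine Finset.sum_congr rfl fun k _ => ?_
  rw [mul_comm (α j) (star (α i))]

theorem exists_sqzero (B : TwoSidedIdeal A) (hB : IsClosed (B : Set A)) (hch : ChainIn B)
    (M : TwoSidedIdeal A) (hM : IsClosed (M : Set A)) {n : ℕ} (hn : 1 ≤ n)
    (hpi : ∀ h : A, h ∈ B → 0 ≤ h → AmpSub (Fin (2 * n)) (Fin n) h h)
    {ψ : A} (hψ : IsSelfAdjoint ψ) (hψB : ψ ∈ B) {c : A} (hc : 0 ≤ c) (hcD : InD ψ c)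
    (hcM : c ∉ M) : ∃ T : A, InD ψ T ∧ T * T = 0 ∧ T ∉ M := by
  by_contra hcon
  have hNZ : ∀ T : A, InD ψ T → T * T = 0 → T ∈ M := by
    intro T hT hTT
    by_contra hTM
    exact hcon ⟨T, hT, hTT, hTM⟩
  have hcsa : star c = c := hc.isSelfAdjoint
  set c2 : A := c * c with hc2
  set c4 : A := c2 * c2 with hc4
  set c6 : A := c * c4 * c with hc6
  set c8 : A := c4 * c4 with hc8
  have hc6nn : 0 ≤ c6 := by
    have h1 : c6 = star (c2 * c) * (c2 * c) := by
      rw [hc6, hc4, hc2, star_mul, star_mul, hcsa]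
      noncomm_ring
    rw [h1]
    exact star_mul_self_nonneg _
  have hcB : c ∈ B := hcD.mem B hψB
  have hc6B : c6 ∈ B := B.mul_mem_left _ _ hcB
  have hc868 : c * c6 * c = c8 := by
    rw [hc8, hc6, hc4, hc2]
    noncomm_ring
  have hc2sa : IsSelfAdjoint c2 := by
    rw [IsSelfAdjoint, hc2, star_mul, hcsa]
  have hc4sa : IsSelfAdjoint c4 := by
    rw [IsSelfAdjoint, hc4, star_mul, hc2sa.star_eq]
  -- the key approximation
  have key : ∀ ε' : ℝ, 0 < ε' → ∃ m ∈ M, ‖m - c8‖ ≤ (2 * (n : ℝ)) * (‖c‖ * ‖c‖) * ε' := by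
    intro ε' hε'
    obtain ⟨r, hr⟩ := hpi c6 hc6B hc6nn ε' hε'
    choose lam hlam using fun (k : Fin n) (i : Fin (2 * n)) =>
      scalar B hB hch M hM hψ hψB hNZ hc hcD (r k i)
    -- a kernel vector
    let L : (Fin (2 * n) → ℂ) →ₗ[ℂ] (Fin n → ℂ) := Matrix.mulVecLin (Matrix.of lam)
    have hLker : LinearMap.ker L ≠ ⊥ := by
      apply LinearMap.ker_ne_bot_of_finrank_lt
      rw [Module.finrank_fin_fun, Module.finrank_fin_fun]
      omega
    obtain ⟨α, hαker, hα0⟩ := (Submodule.ne_bot_iff _).mp hLker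
    have hker : ∀ k : Fin n, ∑ i, lam k i * α i = 0 := by
      intro k
      have h1 := congrFun (LinearMap.mem_ker.mp hαker) k
      simpa [L, Matrix.mulVec, dotProduct] using h1
    set x : Fin n → Fin (2 * n) → A := fun k i => c * r k i * c with hx
    set w : Fin n → A := fun k => ∑ i, α i • x k i with hw
    have hwM : ∀ k, w k ∈ M := by
      intro k
      have h1 : w k = ∑ i, α i • (x k i - lam k i • c2) := by
        have h2 : ∑ i, α i • (x k i - lam k i • c2)
            = w k - (∑ i, lam k i * α i) • c2 := by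
          rw [hw]
          simp only [smul_sub, Finset.sum_sub_distrib, smul_smul, Finset.sum_smul]
          congr 1
          refine Finset.sum_congr rfl fun i _ => ?_
          rw [mul_comm]
        rw [h2, hker k, zero_smul, sub_zero]
      rw [h1]
      exact sum_mem fun i _ => complex_smul_mem M _ (hlam k i)
    set G : A := ∑ k, star (w k) * c4 * w k with hG
    have hGM : G ∈ M := sum_mem fun k _ => M.mul_mem_left _ _ (hwM k)
    set E : Fin (2 * n) → Fin (2 * n) → A := fun i j =>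
      ∑ k, star (r k i) * c6 * r k j - (if i = j then c6 else 0) with hE
    have hxsum : ∀ i j, ∑ k, star (x k i) * c4 * x k j
        = c * E i j * c + (if i = j then c8 else 0) := by
      intro i j
      have h1 : ∀ k, star (x k i) * c4 * x k j = c * (star (r k i) * c6 * r k j) * c := by
        intro k
        rw [hx, hc6]
        simp only [star_mul, hcsa]
        noncomm_ring
      simp only [h1]
      rw [← Finset.sum_mul, ← Finset.mul_sum, hE]
      by_cases hij : i = j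
      · simp only [hij, if_true]
        rw [mul_sub, sub_mul, hc868]
        abel
      · simp only [hij, if_false, sub_zero, add_zero]
    set Nr : ℝ := ∑ i, ‖α i‖ ^ 2 with hNr
    have hNrpos : 0 < Nr := by
      have hex : ∃ i, α i ≠ 0 := by
        by_contra hall
        rw [not_exists] at hall
        apply hα0
        funext i
        by_contra hi
        exact hall i hi
      obtain ⟨i₀, hi₀⟩ := hex
      have h1 : 0 < ‖α i₀‖ ^ 2 := by positivity
      have h2 : ‖α i₀‖ ^ 2 ≤ Nr :=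
        Finset.single_le_sum (f := fun i => ‖α i‖ ^ 2) (fun _ _ => by positivity)
          (Finset.mem_univ i₀)
      linarith
    have hNc : ∑ i, star (α i) * α i = ((Nr : ℝ) : ℂ) := by
      rw [hNr, Complex.ofReal_sum]
      refine Finset.sum_congr rfl fun i _ => ?_
      rw [Complex.star_def, Complex.conj_mul']
      norm_cast
    set Err : A := ∑ i, ∑ j, (star (α i) * α j) • (c * E i j * c) with hErr
    have hGsplit : G = Err + Nr • c8 := by
      rw [hG, hw, gram_identity x α c4]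
      simp only [hxsum, smul_add, Finset.sum_add_distrib]
      rw [← hErr]
      congr 1
      have h1 : ∀ i, ∑ j, (star (α i) * α j) • (if i = j then c8 else 0)
          = (star (α i) * α i) • c8 := by
        intro i
        have h2 : ∀ j, (star (α i) * α j) • (if i = j then c8 else 0)
            = if i = j then (star (α i) * α i) • c8 else 0 := by
          intro j
          by_cases hij : i = j
          · subst hij; simp
          · simp [hij]
        simp only [h2]
        rw [Finset.sum_ite_eq Finset.univ i]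
        simp
      simp only [h1]
      rw [← Finset.sum_smul, hNc, Complex.coe_smul]
    have hErrbound : ‖Err‖ ≤ (∑ i, ‖α i‖) * (∑ j, ‖α j‖) * (‖c‖ * ‖c‖ * ε') := by
      rw [hErr]
      calc ‖∑ i, ∑ j, (star (α i) * α j) • (c * E i j * c)‖
          ≤ ∑ i, ‖∑ j, (star (α i) * α j) • (c * E i j * c)‖ := norm_sum_le _ _
        _ ≤ ∑ i, ∑ j, ‖(star (α i) * α j) • (c * E i j * c)‖ :=
            Finset.sum_le_sum fun i _ => norm_sum_le _ _
        _ ≤ ∑ i, ∑ j, ‖α i‖ * ‖α j‖ * (‖c‖ * ‖c‖ * ε') := by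
            refine Finset.sum_le_sum fun i _ => Finset.sum_le_sum fun j _ => ?_
            rw [norm_smul, norm_mul, norm_star]
            apply mul_le_mul_of_nonneg_left _ (by positivity)
            calc ‖c * E i j * c‖ ≤ ‖c * E i j‖ * ‖c‖ := norm_mul_le _ _
              _ ≤ ‖c‖ * ‖E i j‖ * ‖c‖ :=
                  mul_le_mul_of_nonneg_right (norm_mul_le _ _) (norm_nonneg _)
              _ ≤ ‖c‖ * ε' * ‖c‖ := by
                  apply mul_le_mul_of_nonneg_right _ (norm_nonneg _)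
                  exact mul_le_mul_of_nonneg_left (hr i j).le (norm_nonneg _)
              _ = ‖c‖ * ‖c‖ * ε' := by ring
        _ = (∑ i, ‖α i‖) * (∑ j, ‖α j‖) * (‖c‖ * ‖c‖ * ε') := by
            rw [Finset.sum_mul_sum, Finset.sum_mul]
            refine Finset.sum_congr rfl fun i _ => ?_
            rw [Finset.sum_mul]
    have hCS : (∑ i, ‖α i‖) * (∑ j, ‖α j‖) ≤ (2 * (n : ℝ)) * Nr := by
      have h1 := sq_sum_le_card_mul_sum_sq (s := (Finset.univ : Finset (Fin (2 * n))))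
        (f := fun i => ‖α i‖)
      rw [Finset.card_univ, Fintype.card_fin] at h1
      rw [hNr]
      calc (∑ i, ‖α i‖) * (∑ j, ‖α j‖) = (∑ i, ‖α i‖) ^ 2 := by ring
        _ ≤ ((2 * n : ℕ) : ℝ) * ∑ i, ‖α i‖ ^ 2 := h1
        _ = (2 * (n : ℝ)) * ∑ i, ‖α i‖ ^ 2 := by push_cast; ring
    refine ⟨Nr⁻¹ • G, real_smul_mem M _ hGM, ?_⟩
    have h1 : Nr⁻¹ • G - c8 = Nr⁻¹ • Err := by
      rw [hGsplit, smul_add, smul_smul, inv_mul_cancel₀ hNrpos.ne', one_smul]
      abel
    rw [h1, norm_smul, Real.norm_eq_abs, abs_of_pos (inv_pos.mpr hNrpos)]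
    have hpos : 0 ≤ ‖c‖ * ‖c‖ * ε' := by positivity
    calc Nr⁻¹ * ‖Err‖ ≤ Nr⁻¹ * ((∑ i, ‖α i‖) * (∑ j, ‖α j‖) * (‖c‖ * ‖c‖ * ε')) :=
          mul_le_mul_of_nonneg_left hErrbound (inv_pos.mpr hNrpos).le
      _ ≤ Nr⁻¹ * ((2 * (n : ℝ)) * Nr * (‖c‖ * ‖c‖ * ε')) := by
          apply mul_le_mul_of_nonneg_left _ (inv_pos.mpr hNrpos).le
          exact mul_le_mul_of_nonneg_right hCS hpos
      _ = (2 * (n : ℝ)) * (‖c‖ * ‖c‖) * ε' := by
          field_simp
  -- conclude `c8 ∈ M`
  have hc8M : c8 ∈ M := by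
    have hcl : c8 ∈ closure (M : Set A) := by
      rw [Metric.mem_closure_iff]
      intro ε hε
      have hden : 0 < (2 * (n : ℝ)) * (‖c‖ * ‖c‖) + 1 := by positivity
      obtain ⟨m, hm, hmn⟩ := key (ε / ((2 * (n : ℝ)) * (‖c‖ * ‖c‖) + 1)) (div_pos hε hden)
      refine ⟨m, hm, ?_⟩
      rw [dist_comm, dist_eq_norm]
      calc ‖m - c8‖ ≤ (2 * (n : ℝ)) * (‖c‖ * ‖c‖) * (ε / ((2 * (n : ℝ)) * (‖c‖ * ‖c‖) + 1)) := hmn
        _ < ε := by
            rw [mul_div_assoc', div_lt_iff₀ hden]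
            have : 0 ≤ (2 * (n : ℝ)) * (‖c‖ * ‖c‖) := by positivity
            nlinarith
    rwa [hM.closure_eq] at hcl
  have hc4M : c4 ∈ M := mem_of_mul_self_mem M hM hc4sa hc8M
  have hc2M : c2 ∈ M := mem_of_mul_self_mem M hM hc2sa hc4M
  exact hcM (mem_of_mul_self_mem M hM hc.isSelfAdjoint hc2M)

end Vale.Agent.H36.PI
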