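import Vale.Agent.H36.PI.AmpSub

/-!
# Ideals attached to comparison

* `AmpSub.absorb`: if `h ⊗ 1_{2n} ≾ h ⊗ 1_n` then `h ⊗ 1_ι ≾ h ⊗ 1_n` for every finite `ι`.
* `domIdeal`: the closed two-sided ideal of all `a` with `a* a ≾ Y ⊗ 1_n`.
-/

set_option linter.unusedSectionVars false

namespace Vale.Agent.H36.PI

variable {A : Type*} [CStarAlgebra A]

namespace AmpSub

theorem empty_cols {κ : Type} [Fintype κ] (a b : A) : AmpSub (Fin 0) κ a b :=
  fun _ _ => ⟨fun _ _ => 0, fun i => i.elim0⟩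

theorem to_sum {n : ℕ} {κ : Type} [Fintype κ] [DecidableEq κ] {a b : A}
    (h : AmpSub (Fin (2 * n)) κ a b) : AmpSub (Fin n ⊕ Fin n) κ a b := by
  apply h.cols (fun x => Fin.cast (two_mul n).symm (finSumFinEquiv x))
  exact (Fin.cast_injective _).comp finSumFinEquiv.injective

theorem of_sum {n : ℕ} {κ : Type} [Fintype κ] [DecidableEq κ] {a b : A}
    (h : AmpSub (Fin n ⊕ Fin n) κ a b) : AmpSub (Fin (2 * n)) κ a b := by
  apply h.cols (fun x => finSumFinEquiv.symm (Fin.cast (two_mul n) x))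
  exact finSumFinEquiv.symm.injective.comp (Fin.cast_injective _)

/-- Proper infiniteness of `h ⊗ 1_n` absorbs every amplification. -/
theorem absorb {n : ℕ} (hn : 1 ≤ n) {h : A} (hpi : AmpSub (Fin (2 * n)) (Fin n) h h)
    (ι : Type) [Fintype ι] [DecidableEq ι] : AmpSub ι (Fin n) h h := by
  have hsum : AmpSub (Fin n ⊕ Fin n) (Fin n) h h := hpi.to_sum
  have h1 : AmpSub (Fin 1) (Fin n) h h := by
    apply hsum.cols (fun _ => Sum.inl ⟨0, hn⟩)
    exact Function.injective_of_subsingleton _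
  have hN : ∀ N : ℕ, AmpSub (Fin N) (Fin n) h h := by
    intro N
    induction N with
    | zero => exact empty_cols h h
    | succ N ih =>
      have h2 : AmpSub (Fin N ⊕ Fin 1) (Fin n) h h := (ih.sum h1).trans hsum
      exact h2.cols (fun x => finSumFinEquiv.symm x) finSumFinEquiv.symm.injective
  exact (hN (Fintype.card ι)).cols (fun x => Fintype.equivFin ι x) (Fintype.equivFin ι).injective

theorem refl {ι : Type} [Fintype ι] [DecidableEq ι] (b : A) : AmpSub ι ι b b :=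
  embed b id Function.injective_id

end AmpSub

variable [PartialOrder A] [StarOrderedRing A]

theorem star_add_mul_add_le (a b : A) :
    star (a + b) * (a + b) ≤ (2 : ℝ) • (star a * a + star b * b) := by
  have h : (2 : ℝ) • (star a * a + star b * b) - star (a + b) * (a + b)
      = star (a - b) * (a - b) := by
    rw [two_smul, star_add, star_sub]
    noncomm_ring
  rw [← sub_nonneg, h]
  exact star_mul_self_nonneg _

theorem star_mul_mul_le (x y : A) :
    star (x * y) * (x * y) ≤ (‖x‖ ^ 2) • (star y * y) := by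
  have h1 : star x * x ≤ algebraMap ℝ A (‖x‖ ^ 2) := CStarAlgebra.star_mul_le_algebraMap_norm_sq
  have h2 := star_left_conjugate_le_conjugate h1 y
  have h3 : star (x * y) * (x * y) = star y * (star x * x) * y := by
    rw [star_mul]; noncomm_ring
  have h4 : star y * (algebraMap ℝ A (‖x‖ ^ 2)) * y = (‖x‖ ^ 2) • (star y * y) := by
    rw [Algebra.algebraMap_eq_smul_one, mul_smul_comm, mul_one, smul_mul_assoc]
  rw [h3, ← h4]
  exact h2

theorem norm_star_mul_self_sub_le (a a' : A) :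
    ‖star a' * a' - star a * a‖ ≤ ‖a' - a‖ * (‖a'‖ + ‖a‖) := by
  have h : star a' * a' - star a * a = star (a' - a) * a' + star a * (a' - a) := by
    rw [star_sub]; noncomm_ring
  rw [h]
  calc ‖star (a' - a) * a' + star a * (a' - a)‖
      ≤ ‖star (a' - a) * a'‖ + ‖star a * (a' - a)‖ := norm_add_le _ _
    _ ≤ ‖star (a' - a)‖ * ‖a'‖ + ‖star a‖ * ‖a' - a‖ :=
        add_le_add (norm_mul_le _ _) (norm_mul_le _ _)
    _ = ‖a' - a‖ * (‖a'‖ + ‖a‖) := by rw [norm_star, norm_star]; ring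

/-- The ideal of all `a ∈ B` with `a* a ≾ Y ⊗ 1_n`. -/
def domIdeal (B : TwoSidedIdeal A) {n : ℕ} {Y : A}
    (hpi : AmpSub (Fin (2 * n)) (Fin n) Y Y) : TwoSidedIdeal A :=
  TwoSidedIdeal.mk' {a | a ∈ B ∧ AmpSub Unit (Fin n) (star a * a) Y}
    (by
      refine ⟨B.zero_mem, ?_⟩
      apply AmpSub.of_exact (fun _ _ => 0)
      intro i j
      simp)
    (by
      rintro x y ⟨hxB, hx⟩ ⟨hyB, hy⟩
      refine ⟨B.add_mem hxB hyB, ?_⟩
      have h1 : AmpSub Unit (Fin n) (star x * x + star y * y) Y :=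
        (hx.add_unit hy).trans hpi.to_sum
      exact (AmpSub.of_le_smul (by norm_num) (star_mul_self_nonneg _)
        (star_add_mul_add_le x y)).trans h1)
    (by
      rintro x ⟨hxB, hx⟩
      refine ⟨B.neg_mem hxB, ?_⟩
      simpa using hx)
    (by
      rintro x y ⟨hyB, hy⟩
      refine ⟨B.mul_mem_left _ _ hyB, ?_⟩
      exact (AmpSub.of_le_smul (by positivity) (star_mul_self_nonneg _)
        (star_mul_mul_le x y)).trans hy)
    (by
      rintro x y ⟨hxB, hx⟩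
      refine ⟨B.mul_mem_right _ _ hxB, ?_⟩
      have h1 := hx.conj y
      have h2 : star y * (star x * x) * y = star (x * y) * (x * y) := by
        rw [star_mul]; noncomm_ring
      rwa [h2] at h1)

theorem mem_domIdeal (B : TwoSidedIdeal A) {n : ℕ} {Y : A}
    (hpi : AmpSub (Fin (2 * n)) (Fin n) Y Y) (a : A) :
    a ∈ domIdeal B hpi ↔ a ∈ B ∧ AmpSub Unit (Fin n) (star a * a) Y := by
  unfold domIdeal
  rw [TwoSidedIdeal.mem_mk']
  rfl

theorem domIdeal_le (B : TwoSidedIdeal A) {n : ℕ} {Y : A}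
    (hpi : AmpSub (Fin (2 * n)) (Fin n) Y Y) : domIdeal B hpi ≤ B :=
  fun a ha => ((mem_domIdeal B hpi a).mp ha).1

theorem isClosed_domIdeal (B : TwoSidedIdeal A) (hB : IsClosed (B : Set A)) {n : ℕ} {Y : A}
    (hpi : AmpSub (Fin (2 * n)) (Fin n) Y Y) : IsClosed (domIdeal B hpi : Set A) := by
  rw [← closure_subset_iff_isClosed]
  intro a ha
  rw [SetLike.mem_coe, mem_domIdeal]
  constructor
  · have : a ∈ closure (B : Set A) :=
      closure_mono (fun x hx => domIdeal_le B hpi hx) ha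
    rwa [hB.closure_eq] at this
  · apply AmpSub.limit
    intro ε hε
    rw [Metric.mem_closure_iff] at ha
    have hden : 0 < 2 * ‖a‖ + 2 := by positivity
    obtain ⟨a', ha', hdist⟩ := ha (min 1 (ε / (2 * ‖a‖ + 2))) (lt_min one_pos (div_pos hε hden))
    rw [dist_comm, dist_eq_norm] at hdist
    have hd1 : ‖a' - a‖ < 1 := lt_of_lt_of_le hdist (min_le_left _ _)
    have hd2 : ‖a' - a‖ < ε / (2 * ‖a‖ + 2) := lt_of_lt_of_le hdist (min_le_right _ _)
    refine ⟨star a' * a', ?_, ((mem_domIdeal B hpi a').mp ha').2⟩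
    have hn' : ‖a'‖ ≤ ‖a‖ + 1 := by
      have : ‖a'‖ ≤ ‖a' - a‖ + ‖a‖ := by
        calc ‖a'‖ = ‖(a' - a) + a‖ := by rw [sub_add_cancel]
          _ ≤ ‖a' - a‖ + ‖a‖ := norm_add_le _ _
      linarith
    calc ‖star a' * a' - star a * a‖ ≤ ‖a' - a‖ * (‖a'‖ + ‖a‖) := norm_star_mul_self_sub_le a a'
      _ ≤ ‖a' - a‖ * (2 * ‖a‖ + 2) := by
          apply mul_le_mul_of_nonneg_left _ (norm_nonneg _)
          linarith
      _ < ε := by
          rw [lt_div_iff₀ hden] at hd2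
          exact hd2

theorem self_mem_domIdeal (B : TwoSidedIdeal A) {n : ℕ} (hn : 1 ≤ n) {Y : A} (hY : 0 ≤ Y)
    (hYB : Y ∈ B) (hpi : AmpSub (Fin (2 * n)) (Fin n) Y Y) : Y ∈ domIdeal B hpi := by
  rw [mem_domIdeal]
  refine ⟨hYB, ?_⟩
  have h1 : AmpSub Unit Unit (star (CFC.sqrt Y) * Y * CFC.sqrt Y) Y :=
    (AmpSub.refl Y).conj (CFC.sqrt Y)
  have h2 : star (CFC.sqrt Y) * Y * CFC.sqrt Y = star Y * Y := by
    rw [(CFC.sqrt_nonneg Y).isSelfAdjoint.star_eq, hY.isSelfAdjoint.star_eq]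
    have h3 := CFC.sqrt_mul_sqrt_self Y hY
    calc CFC.sqrt Y * Y * CFC.sqrt Y
        = CFC.sqrt Y * (CFC.sqrt Y * CFC.sqrt Y) * CFC.sqrt Y := by rw [h3]
      _ = (CFC.sqrt Y * CFC.sqrt Y) * (CFC.sqrt Y * CFC.sqrt Y) := by noncomm_ring
      _ = Y * Y := by rw [h3]
  rw [h2] at h1
  exact h1.trans (AmpSub.embed Y (fun _ => (⟨0, hn⟩ : Fin n))
    (Function.injective_of_subsingleton _))

/-! ### The chain hypothesis, the large ideal missing `e`, primeness -/

omit [PartialOrder A] [StarOrderedRing A] in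
/-- The closed two-sided ideals contained in `B` are totally ordered. -/
def ChainIn (B : TwoSidedIdeal A) : Prop :=
  ∀ I J : TwoSidedIdeal A, IsClosed (I : Set A) → IsClosed (J : Set A) → I ≤ B → J ≤ B →
    I ≤ J ∨ J ≤ I

omit [PartialOrder A] [StarOrderedRing A] in
/-- The closure of the union of all closed ideals inside `B` that do not contain `e`. -/
def bigIdeal (B : TwoSidedIdeal A) (hch : ChainIn B) (e : A) (he : e ≠ 0) : TwoSidedIdeal A :=
  TwoSidedIdeal.mk' {x | ∀ δ : ℝ, 0 < δ → ∃ J : TwoSidedIdeal A,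
      IsClosed (J : Set A) ∧ J ≤ B ∧ e ∉ J ∧ ∃ j ∈ J, ‖x - j‖ < δ}
    (by
      intro δ hδ
      refine ⟨⊥, ?_, bot_le, ?_, 0, (⊥ : TwoSidedIdeal A).zero_mem, by simpa using hδ⟩
      · rw [TwoSidedIdeal.coe_bot]; exact isClosed_singleton
      · rw [TwoSidedIdeal.mem_bot]; exact he)
    (by
      intro x y hx hy δ hδ
      obtain ⟨J₁, hJ₁, hJ₁B, heJ₁, j₁, hj₁, hd₁⟩ := hx (δ / 2) (by positivity)
      obtain ⟨J₂, hJ₂, hJ₂B, heJ₂, j₂, hj₂, hd₂⟩ := hy (δ / 2) (by positivity)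
      have hnorm : ‖x + y - (j₁ + j₂)‖ < δ := by
        calc ‖x + y - (j₁ + j₂)‖ = ‖(x - j₁) + (y - j₂)‖ := by congr 1; abel
          _ ≤ ‖x - j₁‖ + ‖y - j₂‖ := norm_add_le _ _
          _ < δ / 2 + δ / 2 := add_lt_add hd₁ hd₂
          _ = δ := by ring
      rcases hch J₁ J₂ hJ₁ hJ₂ hJ₁B hJ₂B with h | h
      · exact ⟨J₂, hJ₂, hJ₂B, heJ₂, j₁ + j₂, J₂.add_mem (h hj₁) hj₂, hnorm⟩
      · exact ⟨J₁, hJ₁, hJ₁B, heJ₁, j₁ + j₂, J₁.add_mem hj₁ (h hj₂), hnorm⟩)
    (by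
      intro x hx δ hδ
      obtain ⟨J, hJ, hJB, heJ, j, hj, hd⟩ := hx δ hδ
      refine ⟨J, hJ, hJB, heJ, -j, J.neg_mem hj, ?_⟩
      have : -x - -j = -(x - j) := by abel
      rw [this, norm_neg]; exact hd)
    (by
      intro x y hy δ hδ
      have hden : 0 < ‖x‖ + 1 := by positivity
      obtain ⟨J, hJ, hJB, heJ, j, hj, hd⟩ := hy (δ / (‖x‖ + 1)) (div_pos hδ hden)
      refine ⟨J, hJ, hJB, heJ, x * j, J.mul_mem_left _ _ hj, ?_⟩
      rw [← mul_sub]
      calc ‖x * (y - j)‖ ≤ ‖x‖ * ‖y - j‖ := norm_mul_le _ _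
        _ ≤ ‖x‖ * (δ / (‖x‖ + 1)) := mul_le_mul_of_nonneg_left hd.le (norm_nonneg _)
        _ < δ := by
            rw [mul_div_assoc', div_lt_iff₀ hden]
            nlinarith [norm_nonneg x])
    (by
      intro x y hx δ hδ
      have hden : 0 < ‖y‖ + 1 := by positivity
      obtain ⟨J, hJ, hJB, heJ, j, hj, hd⟩ := hx (δ / (‖y‖ + 1)) (div_pos hδ hden)
      refine ⟨J, hJ, hJB, heJ, j * y, J.mul_mem_right _ _ hj, ?_⟩
      rw [← sub_mul]
      calc ‖(x - j) * y‖ ≤ ‖x - j‖ * ‖y‖ := norm_mul_le _ _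
        _ ≤ (δ / (‖y‖ + 1)) * ‖y‖ := mul_le_mul_of_nonneg_right hd.le (norm_nonneg _)
        _ < δ := by
            rw [div_mul_eq_mul_div, div_lt_iff₀ hden]
            nlinarith [norm_nonneg y])

omit [PartialOrder A] [StarOrderedRing A] in
theorem mem_bigIdeal (B : TwoSidedIdeal A) (hch : ChainIn B) (e : A) (he : e ≠ 0) (x : A) :
    x ∈ bigIdeal B hch e he ↔ ∀ δ : ℝ, 0 < δ → ∃ J : TwoSidedIdeal A,
      IsClosed (J : Set A) ∧ J ≤ B ∧ e ∉ J ∧ ∃ j ∈ J, ‖x - j‖ < δ := by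
  unfold bigIdeal
  rw [TwoSidedIdeal.mem_mk']
  rfl

omit [PartialOrder A] [StarOrderedRing A] in
theorem le_bigIdeal (B : TwoSidedIdeal A) (hch : ChainIn B) (e : A) (he : e ≠ 0)
    (J : TwoSidedIdeal A) (hJ : IsClosed (J : Set A)) (hJB : J ≤ B) (heJ : e ∉ J) :
    J ≤ bigIdeal B hch e he := by
  intro x hx
  rw [mem_bigIdeal]
  intro δ hδ
  exact ⟨J, hJ, hJB, heJ, x, hx, by simpa using hδ⟩

omit [PartialOrder A] [StarOrderedRing A] in
theorem isClosed_bigIdeal (B : TwoSidedIdeal A) (hch : ChainIn B) (e : A) (he : e ≠ 0) :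
    IsClosed (bigIdeal B hch e he : Set A) := by
  rw [← closure_subset_iff_isClosed]
  intro x hx
  rw [SetLike.mem_coe, mem_bigIdeal]
  intro δ hδ
  rw [Metric.mem_closure_iff] at hx
  obtain ⟨x', hx', hdist⟩ := hx (δ / 2) (by positivity)
  rw [dist_eq_norm] at hdist
  obtain ⟨J, hJ, hJB, heJ, j, hj, hd⟩ := (mem_bigIdeal B hch e he x').mp hx' (δ / 2) (by positivity)
  refine ⟨J, hJ, hJB, heJ, j, hj, ?_⟩
  calc ‖x - j‖ = ‖(x - x') + (x' - j)‖ := by congr 1; abel
    _ ≤ ‖x - x'‖ + ‖x' - j‖ := norm_add_le _ _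
    _ < δ / 2 + δ / 2 := add_lt_add hdist hd
    _ = δ := by ring

omit [PartialOrder A] [StarOrderedRing A] in
theorem bigIdeal_le (B : TwoSidedIdeal A) (hB : IsClosed (B : Set A)) (hch : ChainIn B) (e : A)
    (he : e ≠ 0) : bigIdeal B hch e he ≤ B := by
  intro x hx
  have hcl : x ∈ closure (B : Set A) := by
    rw [Metric.mem_closure_iff]
    intro ε hε
    obtain ⟨J, _, hJB, _, j, hj, hd⟩ := (mem_bigIdeal B hch e he x).mp hx ε hε
    exact ⟨j, hJB hj, by rw [dist_eq_norm]; exact hd⟩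
  rwa [hB.closure_eq] at hcl

/-- A positive element `c` does not lie in the large ideal missing `(c - ε)_+`. -/
theorem not_mem_bigIdeal (B : TwoSidedIdeal A) (hch : ChainIn B) {c : A} (hc : 0 ≤ c) {ε : ℝ}
    (hε : 0 < ε) (he : cut ε c ≠ 0) : c ∉ bigIdeal B hch (cut ε c) he := by
  intro hmem
  obtain ⟨J, hJ, _, heJ, j, hj, hd⟩ := (mem_bigIdeal B hch _ he c).mp hmem ε hε
  exact heJ (cut_mem_of_norm_sub_le J hJ hc hj hd.le)

/-- Under the chain hypothesis every closed ideal is prime (on positive elements of `B`). -/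
theorem prime_of_chain (B : TwoSidedIdeal A) (hB : IsClosed (B : Set A)) (hch : ChainIn B)
    (M : TwoSidedIdeal A) (hM : IsClosed (M : Set A)) {p q : A} (hp : 0 ≤ p) (hq : 0 ≤ q)
    (hpB : p ∈ B) (hqB : q ∈ B) (h : ∀ x : A, p * x * q ∈ M) : p ∈ M ∨ q ∈ M := by
  let N₁ : TwoSidedIdeal A := TwoSidedIdeal.mk' {x | x ∈ B ∧ ∀ y z : A, y * x * z * q ∈ M}
    ⟨B.zero_mem, fun y z => by simp⟩
    (by
      rintro x x' ⟨hxB, hx⟩ ⟨hx'B, hx'⟩
      refine ⟨B.add_mem hxB hx'B, fun y z => ?_⟩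
      have : y * (x + x') * z * q = y * x * z * q + y * x' * z * q := by noncomm_ring
      rw [this]; exact M.add_mem (hx y z) (hx' y z))
    (by
      rintro x ⟨hxB, hx⟩
      refine ⟨B.neg_mem hxB, fun y z => ?_⟩
      have : y * (-x) * z * q = -(y * x * z * q) := by noncomm_ring
      rw [this]; exact M.neg_mem (hx y z))
    (by
      rintro a x ⟨hxB, hx⟩
      refine ⟨B.mul_mem_left _ _ hxB, fun y z => ?_⟩
      have : y * (a * x) * z * q = (y * a) * x * z * q := by noncomm_ring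
      rw [this]; exact hx _ _)
    (by
      rintro x a ⟨hxB, hx⟩
      refine ⟨B.mul_mem_right _ _ hxB, fun y z => ?_⟩
      have : y * (x * a) * z * q = y * x * (a * z) * q := by noncomm_ring
      rw [this]; exact hx _ _)
  let N₂ : TwoSidedIdeal A := TwoSidedIdeal.mk' {x | x ∈ B ∧ ∀ y z : A, p * y * x * z ∈ M}
    ⟨B.zero_mem, fun y z => by simp⟩
    (by
      rintro x x' ⟨hxB, hx⟩ ⟨hx'B, hx'⟩
      refine ⟨B.add_mem hxB hx'B, fun y z => ?_⟩
      have : p * y * (x + x') * z = p * y * x * z + p * y * x' * z := by noncomm_ring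
      rw [this]; exact M.add_mem (hx y z) (hx' y z))
    (by
      rintro x ⟨hxB, hx⟩
      refine ⟨B.neg_mem hxB, fun y z => ?_⟩
      have : p * y * (-x) * z = -(p * y * x * z) := by noncomm_ring
      rw [this]; exact M.neg_mem (hx y z))
    (by
      rintro a x ⟨hxB, hx⟩
      refine ⟨B.mul_mem_left _ _ hxB, fun y z => ?_⟩
      have : p * y * (a * x) * z = p * (y * a) * x * z := by noncomm_ring
      rw [this]; exact hx _ _)
    (by
      rintro x a ⟨hxB, hx⟩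
      refine ⟨B.mul_mem_right _ _ hxB, fun y z => ?_⟩
      have : p * y * (x * a) * z = p * y * x * (a * z) := by noncomm_ring
      rw [this]; exact hx _ _)
  have hN₁mem : ∀ x, x ∈ N₁ ↔ x ∈ B ∧ ∀ y z : A, y * x * z * q ∈ M := fun x => by
    rw [TwoSidedIdeal.mem_mk']; rfl
  have hN₂mem : ∀ x, x ∈ N₂ ↔ x ∈ B ∧ ∀ y z : A, p * y * x * z ∈ M := fun x => by
    rw [TwoSidedIdeal.mem_mk']; rfl
  have hN₁cl : IsClosed (N₁ : Set A) := by
    have : (N₁ : Set A) = (B : Set A) ∩ ⋂ y : A, ⋂ z : A, (fun x => y * x * z * q) ⁻¹' (M : Set A) := by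
      ext x
      simp only [SetLike.mem_coe, hN₁mem, Set.mem_inter_iff, Set.mem_iInter, Set.mem_preimage]
    rw [this]
    refine hB.inter (isClosed_iInter fun y => isClosed_iInter fun z => hM.preimage ?_)
    fun_prop
  have hN₂cl : IsClosed (N₂ : Set A) := by
    have : (N₂ : Set A) = (B : Set A) ∩ ⋂ y : A, ⋂ z : A, (fun x => p * y * x * z) ⁻¹' (M : Set A) := by
      ext x
      simp only [SetLike.mem_coe, hN₂mem, Set.mem_inter_iff, Set.mem_iInter, Set.mem_preimage]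
    rw [this]
    refine hB.inter (isClosed_iInter fun y => isClosed_iInter fun z => hM.preimage ?_)
    fun_prop
  have hpN₁ : p ∈ N₁ := by
    rw [hN₁mem]
    refine ⟨hpB, fun y z => ?_⟩
    have : y * p * z * q = y * (p * z * q) := by noncomm_ring
    rw [this]; exact M.mul_mem_left _ _ (h z)
  have hqN₂ : q ∈ N₂ := by
    rw [hN₂mem]
    refine ⟨hqB, fun y z => ?_⟩
    exact M.mul_mem_right _ _ (h y)
  rcases hch N₁ N₂ hN₁cl hN₂cl (fun x hx => ((hN₁mem x).mp hx).1)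
    (fun x hx => ((hN₂mem x).mp hx).1) with h12 | h21
  · left
    have := ((hN₂mem p).mp (h12 hpN₁)).2 1 1
    simp only [mul_one] at this
    exact mem_of_mul_self_mem M hM hp.isSelfAdjoint this
  · right
    have := ((hN₁mem q).mp (h21 hqN₂)).2 1 1
    simp only [one_mul, mul_one] at this
    exact mem_of_mul_self_mem M hM hq.isSelfAdjoint this

end Vale.Agent.H36.PI
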