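import Vale.Agent.H36.PI.Glimm

/-!
# Weakly purely infinite implies purely infinite for totally ordered ideal lattices
-/

set_option linter.unusedSectionVars false

namespace Vale.Agent.H36.PI

variable {A : Type*} [CStarAlgebra A] [PartialOrder A] [StarOrderedRing A]

/-! ### Local units -/

/-- `min (t / ε) 1` applied to `h`. -/
noncomputable def psi (ε : ℝ) (h : A) : A := cfc (fun t : ℝ => min (t / ε) 1) h

/-- `sqrt t / max t ε` applied to `h`. -/
noncomputable def vfun (ε : ℝ) (h : A) : A := cfc (fun t : ℝ => Real.sqrt t / max t ε) h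

omit [PartialOrder A] [StarOrderedRing A] in
theorem psi_selfAdjoint (ε : ℝ) (h : A) : IsSelfAdjoint (psi ε h) := by
  unfold psi; exact cfc_predicate _ _

omit [PartialOrder A] [StarOrderedRing A] in
theorem vfun_selfAdjoint (ε : ℝ) (h : A) : IsSelfAdjoint (vfun ε h) := by
  unfold vfun; exact cfc_predicate _ _

theorem continuousOn_inv_max {ε : ℝ} (hε : 0 < ε) (s : Set ℝ) :
    ContinuousOn (fun t : ℝ => 1 / max t ε) s := by
  apply ContinuousOn.div continuousOn_const (by fun_prop)
  intro t _
  have : ε ≤ max t ε := le_max_right _ _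
  positivity

theorem psi_mem {ε : ℝ} (hε : 0 < ε) {h : A} (hh : 0 ≤ h) (B : TwoSidedIdeal A) (hhB : h ∈ B) :
    psi ε h ∈ B := by
  have hsa : IsSelfAdjoint h := hh.isSelfAdjoint
  have h1 : psi ε h = cfc (fun t : ℝ => 1 / max t ε) h * h := by
    rw [cfc_mul_id _ h (continuousOn_inv_max hε _) hsa]
    unfold psi
    apply cfc_congr
    intro t ht
    have ht0 : 0 ≤ t := spectrum_nonneg_of_nonneg hh ht
    simp only
    rcases le_total t ε with hle | hle
    · rw [max_eq_right hle, min_eq_left ((div_le_one hε).mpr hle)]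
      field_simp
    · have htpos : 0 < t := lt_of_lt_of_le hε hle
      rw [max_eq_left hle, min_eq_right ((one_le_div hε).mpr hle)]
      field_simp
  rw [h1]
  exact B.mul_mem_left _ _ hhB

theorem psi_cut {ε : ℝ} (hε : 0 < ε) {h : A} (hh : 0 ≤ h) : InD (psi ε h) (cut ε h) := by
  have hsa : IsSelfAdjoint h := hh.isSelfAdjoint
  have hfun : ∀ t : ℝ, min (t / ε) 1 * max (t - ε) 0 = max (t - ε) 0 := by
    intro t
    rcases le_total t ε with hle | hle
    · rw [max_eq_right (by linarith)]; simp
    · rw [min_eq_right ((one_le_div hε).mpr hle), one_mul]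
  unfold psi cut
  constructor
  · rw [← cfc_mul (fun t : ℝ => min (t / ε) 1) (fun t : ℝ => max (t - ε) 0) h]
    exact cfc_congr fun t _ => hfun t
  · rw [← cfc_mul (fun t : ℝ => max (t - ε) 0) (fun t : ℝ => min (t / ε) 1) h]
    exact cfc_congr fun t _ => by
      show max (t - ε) 0 * min (t / ε) 1 = max (t - ε) 0
      rw [mul_comm]; exact hfun t

theorem vfun_conj {ε : ℝ} (hε : 0 < ε) {h : A} (hh : 0 ≤ h) :
    vfun ε h * h * vfun ε h = psi ε h * psi ε h := by
  have hsa : IsSelfAdjoint h := hh.isSelfAdjoint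
  have hc : ContinuousOn (fun t : ℝ => Real.sqrt t / max t ε) (spectrum ℝ h) := by
    apply ContinuousOn.div (by fun_prop) (by fun_prop)
    intro t _
    have : ε ≤ max t ε := le_max_right _ _
    positivity
  unfold vfun psi
  rw [cfc_mul_id _ h hc hsa,
    ← cfc_mul (fun t : ℝ => Real.sqrt t / max t ε * t) (fun t : ℝ => Real.sqrt t / max t ε) h
      (by fun_prop),
    ← cfc_mul (fun t : ℝ => min (t / ε) 1) (fun t : ℝ => min (t / ε) 1) h]
  apply cfc_congr
  intro t ht
  have ht0 : 0 ≤ t := spectrum_nonneg_of_nonneg hh ht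
  have hs : Real.sqrt t * Real.sqrt t = t := Real.mul_self_sqrt ht0
  simp only
  rcases le_total t ε with hle | hle
  · rw [max_eq_right hle, min_eq_left ((div_le_one hε).mpr hle)]
    calc Real.sqrt t / ε * t * (Real.sqrt t / ε) = (Real.sqrt t * Real.sqrt t) * t / (ε * ε) := by
          field_simp
      _ = t / ε * (t / ε) := by rw [hs]; field_simp
  · have htpos : 0 < t := lt_of_lt_of_le hε hle
    rw [max_eq_left hle, min_eq_right ((one_le_div hε).mpr hle)]
    calc Real.sqrt t / t * t * (Real.sqrt t / t) = (Real.sqrt t * Real.sqrt t) / t := by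
          field_simp
      _ = 1 * 1 := by rw [hs]; field_simp

/-! ### Exact halving from a square-zero element -/

theorem halving {ε : ℝ} (hε : 0 < ε) {h : A} (hh : 0 ≤ h) {T : A} (hT : InD (psi ε h) T)
    (hTT : T * T = 0) :
    AmpSub (Fin 2) Unit ((T * star T) * (T * star T)) h := by
  set ψ : A := psi ε h with hψdef
  set v : A := vfun ε h with hvdef
  have hψ : IsSelfAdjoint ψ := psi_selfAdjoint ε h
  have hv : star v = v := vfun_selfAdjoint ε h
  have hvv : v * h * v = ψ * ψ := vfun_conj hε hh
  have hTs : InD ψ (star T) := hT.star hψ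
  set P : A := T * star T with hP
  have hP0 : 0 ≤ P := mul_star_self_nonneg T
  set S : A := CFC.sqrt P with hS
  have hSsa : star S = S := (CFC.sqrt_nonneg P).isSelfAdjoint
  have hSS : S * S = P := CFC.sqrt_mul_sqrt_self P hP0
  have hsTT : star T * star T = 0 := by
    rw [← star_mul, hTT, star_zero]
  have e1 : ψ * ψ * T = T := by rw [mul_assoc, hT.1, hT.1]
  have e2 : T * (ψ * ψ) = T := by rw [← mul_assoc, hT.2, hT.2]
  have e3 : ψ * ψ * star T = star T := by rw [mul_assoc, hTs.1, hTs.1]
  have key00 : star (v * T * star T) * h * (v * T * star T) = P * P := by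
    rw [star_mul, star_mul, star_star, hv]
    calc T * (star T * v) * h * (v * T * star T)
        = T * star T * (v * h * v) * T * star T := by noncomm_ring
      _ = T * star T * ((ψ * ψ) * T) * star T := by rw [hvv]; noncomm_ring
      _ = P * P := by rw [e1, hP]; noncomm_ring
  have key11 : star (v * star T * S) * h * (v * star T * S) = P * P := by
    rw [star_mul, star_mul, star_star, hv, hSsa]
    calc S * (T * v) * h * (v * star T * S)
        = S * (T * (v * h * v)) * star T * S := by noncomm_ring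
      _ = S * (T * (ψ * ψ)) * star T * S := by rw [hvv]
      _ = S * P * S := by rw [e2, hP]; noncomm_ring
      _ = (S * S) * (S * S) := by rw [← hSS]; noncomm_ring
      _ = P * P := by rw [hSS]
  have key01 : star (v * T * star T) * h * (v * star T * S) = 0 := by
    rw [star_mul, star_mul, star_star, hv]
    calc T * (star T * v) * h * (v * star T * S)
        = T * star T * ((v * h * v) * star T) * S := by noncomm_ring
      _ = T * star T * (ψ * ψ * star T) * S := by rw [hvv]
      _ = T * (star T * star T) * S := by rw [e3]; noncomm_ring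
      _ = 0 := by rw [hsTT]; simp
  have key10 : star (v * star T * S) * h * (v * T * star T) = 0 := by
    rw [star_mul, star_mul, star_star, hv, hSsa]
    calc S * (T * v) * h * (v * T * star T)
        = S * T * ((v * h * v) * T) * star T := by noncomm_ring
      _ = S * T * (ψ * ψ * T) * star T := by rw [hvv]
      _ = S * (T * T) * star T := by rw [e1]; noncomm_ring
      _ = 0 := by rw [hTT]; simp
  apply AmpSub.of_exact (fun _ i => if i = 0 then v * T * star T else v * star T * S)
  intro i j
  simp only [Finset.univ_unique, Finset.sum_singleton]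
  fin_cases i <;> fin_cases j
  · simpa using key00
  · simpa using key01
  · simpa using key10
  · simpa using key11

theorem halving_not_mem (M : TwoSidedIdeal A) (hM : IsClosed (M : Set A)) {T : A} (hTM : T ∉ M) :
    (T * star T) * (T * star T) ∉ M := by
  intro hY
  have hP : T * star T ∈ M :=
    mem_of_mul_self_mem M hM (mul_star_self_nonneg T).isSelfAdjoint hY
  have hTs : star T ∈ M := by
    apply mem_of_star_mul_self_mem M hM
    rwa [star_star]
  have := star_mem_of_mem M hM hTs
  rw [star_star] at this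
  exact hTM this

/-! ### The descent step -/

theorem descent (B : TwoSidedIdeal A) (hB : IsClosed (B : Set A)) (hch : ChainIn B)
    {n m : ℕ} (hn : 1 ≤ n) (hnm : n ≤ 2 * m)
    (hpi : ∀ h : A, h ∈ B → 0 ≤ h → AmpSub (Fin (2 * n)) (Fin n) h h) :
    ∀ h : A, h ∈ B → 0 ≤ h → AmpSub (Fin (2 * m)) (Fin m) h h := by
  intro h hhB hh
  apply AmpSub.limit
  intro ε hε
  have hε3 : 0 < ε / 3 := by positivity
  set ψ : A := psi (ε / 3) h with hψdef
  have hψ : IsSelfAdjoint ψ := psi_selfAdjoint _ h
  have hψB : ψ ∈ B := psi_mem hε3 hh B hhB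
  set c : A := cut (ε / 3) h with hcdef
  have hc : 0 ≤ c := cut_nonneg _ h
  have hcD : InD ψ c := psi_cut hε3 hh
  set e : A := cut (ε / 3) c with hedef
  have he0 : 0 ≤ e := cut_nonneg _ c
  have hnorm : ‖e - h‖ < ε := by
    have h1 : ‖e - c‖ ≤ ε / 3 := norm_cut_sub_le hε3.le hc
    have h2 : ‖c - h‖ ≤ ε / 3 := norm_cut_sub_le hε3.le hh
    calc ‖e - h‖ = ‖(e - c) + (c - h)‖ := by congr 1; abel
      _ ≤ ‖e - c‖ + ‖c - h‖ := norm_add_le _ _
      _ ≤ ε / 3 + ε / 3 := add_le_add h1 h2
      _ < ε := by linarith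
  refine ⟨e, hnorm, ?_⟩
  by_cases he : e = 0
  · rw [he]
    apply AmpSub.of_exact (fun _ _ => 0)
    intro i j
    simp
  -- the large ideal missing `e`
  set M : TwoSidedIdeal A := bigIdeal B hch e he with hMdef
  have hM : IsClosed (M : Set A) := isClosed_bigIdeal B hch e he
  have hcM : c ∉ M := not_mem_bigIdeal B hch hc hε3 he
  obtain ⟨T, hTD, hTT, hTM⟩ := exists_sqzero B hB hch M hM hn hpi hψ hψB hc hcD hcM
  set Y : A := (T * star T) * (T * star T) with hYdef
  have hhalf : AmpSub (Fin 2) Unit Y h := halving hε3 hh hTD hTT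
  have hYM : Y ∉ M := halving_not_mem M hM hTM
  have hY0 : 0 ≤ Y := by
    have : Y = star (T * star T) * (T * star T) := by
      rw [hYdef, star_mul, star_star]
    rw [this]; exact star_mul_self_nonneg _
  have hYD : InD ψ Y := (hTD.mul (hTD.star hψ)).mul (hTD.mul (hTD.star hψ))
  have hYB : Y ∈ B := hYD.mem B hψB
  have hpiY := hpi Y hYB hY0
  -- `e` lies in the ideal of elements dominated by `Y`
  have heJ : e ∈ domIdeal B hpiY := by
    by_contra hnot
    have hle := le_bigIdeal B hch e he (domIdeal B hpiY) (isClosed_domIdeal B hB hpiY)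
      (domIdeal_le B hpiY) hnot
    exact hYM (hle (self_mem_domIdeal B hn hY0 hYB hpiY))
  have hsqrt : CFC.sqrt e ∈ domIdeal B hpiY :=
    sqrt_mem_of_le _ (isClosed_domIdeal B hB hpiY) he0 le_rfl heJ
  have s1 : AmpSub Unit (Fin n) e Y := by
    have := ((mem_domIdeal B hpiY _).mp hsqrt).2
    rwa [(CFC.sqrt_nonneg e).isSelfAdjoint.star_eq, CFC.sqrt_mul_sqrt_self e he0] at this
  have s2 : AmpSub (Unit × Fin (2 * m)) (Fin n × Fin (2 * m)) e Y := s1.prod (Fin (2 * m))
  have s3 : AmpSub (Fin n × Fin (2 * m)) (Fin n) Y Y := AmpSub.absorb hn hpiY _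
  have s4 : AmpSub (Fin n) (Fin 2 × Fin m) Y Y :=
    AmpSub.embed Y (fun i => finProdFinEquiv.symm (Fin.castLE hnm i))
      (finProdFinEquiv.symm.injective.comp (Fin.castLE_injective hnm))
  have s5 : AmpSub (Fin 2 × Fin m) (Unit × Fin m) Y h := hhalf.prod (Fin m)
  have s6 : AmpSub (Unit × Fin (2 * m)) (Unit × Fin m) e h := s2.trans (s3.trans (s4.trans s5))
  have s7 : AmpSub (Fin (2 * m)) (Unit × Fin m) e h :=
    s6.cols (fun i => ((), i)) (fun i j hij => (Prod.mk.inj hij).2)
  have s8 : AmpSub (Unit × Fin m) (Fin m) h h :=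
    AmpSub.embed h (fun p => p.2) (fun p q hpq => Prod.ext (Subsingleton.elim _ _) hpq)
  exact s7.trans s8

/-- **Main theorem (relative form).** Let `B` be a closed two-sided ideal of a unital
C*-algebra `A` such that the closed two-sided ideals of `A` inside `B` are totally ordered.
If every positive `h ∈ B` satisfies `h ⊗ 1_{2n} ≾ h ⊗ 1_n`, then every positive `h ∈ B`
satisfies `h ⊗ 1_2 ≾ h`. -/
theorem pi_of_wpi_rel (B : TwoSidedIdeal A) (hB : IsClosed (B : Set A)) (hch : ChainIn B) :
    ∀ n : ℕ, 1 ≤ n → (∀ h : A, h ∈ B → 0 ≤ h → AmpSub (Fin (2 * n)) (Fin n) h h) →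
      ∀ h : A, h ∈ B → 0 ≤ h → AmpSub (Fin (2 * 1)) (Fin 1) h h := by
  intro n
  induction n using Nat.strong_induction_on with
  | _ n ih =>
    intro hn hpi
    by_cases h1 : n = 1
    · subst h1; exact hpi
    · have hm1 : 1 ≤ (n + 1) / 2 := by omega
      have hmn : (n + 1) / 2 < n := by omega
      have hnm : n ≤ 2 * ((n + 1) / 2) := by omega
      exact ih ((n + 1) / 2) hmn hm1 (descent B hB hch hn hnm hpi)

end Vale.Agent.H36.PI
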