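import Vale.Agent.H36.PI.Main

/-!
# The non-unital case, via the unitization

A (possibly non-unital) C*-algebra `A` is a closed two-sided ideal of its unitization, and the
closed two-sided ideals of `A` are exactly the closed two-sided ideals of the unitization
contained in `A`. This transports the relative main theorem to non-unital algebras.
-/

set_option linter.unusedSectionVars false

namespace Vale.Agent.H36.PI

section Unital

variable {A : Type*} [CStarAlgebra A] [PartialOrder A] [StarOrderedRing A]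

theorem norm_psi_le {δ : ℝ} (hδ : 0 < δ) {h : A} (hh : 0 ≤ h) : ‖psi δ h‖ ≤ 1 := by
  unfold psi
  apply norm_cfc_le zero_le_one
  intro t ht
  have ht0 : 0 ≤ t := spectrum_nonneg_of_nonneg hh ht
  rw [Real.norm_eq_abs, abs_of_nonneg (le_min (by positivity) zero_le_one)]
  exact min_le_right _ _

theorem psi_conj_norm {δ : ℝ} (hδ : 0 < δ) {h : A} (hh : 0 ≤ h) :
    ‖psi δ h * h * psi δ h - h‖ ≤ δ := by
  have hsa : IsSelfAdjoint h := hh.isSelfAdjoint
  unfold psi
  have h1 : cfc (fun t : ℝ => min (t / δ) 1) h * h * cfc (fun t : ℝ => min (t / δ) 1) h - h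
      = cfc (fun t : ℝ => min (t / δ) 1 * t * min (t / δ) 1 - t) h := by
    rw [cfc_mul_id _ h (by fun_prop) hsa,
      ← cfc_mul (fun t : ℝ => min (t / δ) 1 * t) (fun t : ℝ => min (t / δ) 1) h]
    rw [cfc_sub (fun t : ℝ => min (t / δ) 1 * t * min (t / δ) 1) (fun t : ℝ => t) h, cfc_id' ℝ h]
  rw [h1]
  apply norm_cfc_le hδ.le
  intro t ht
  have ht0 : 0 ≤ t := spectrum_nonneg_of_nonneg hh ht
  rw [Real.norm_eq_abs, abs_le]
  rcases le_total t δ with hle | hle
  · have hm : min (t / δ) 1 = t / δ := min_eq_left ((div_le_one hδ).mpr hle)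
    rw [hm]
    have h2 : 0 ≤ t / δ := by positivity
    have h3 : t / δ ≤ 1 := (div_le_one hδ).mpr hle
    have h4 : 0 ≤ t / δ * t * (t / δ) := by positivity
    have h5 : t / δ * t * (t / δ) ≤ t := by
      calc t / δ * t * (t / δ) ≤ 1 * t * 1 := by gcongr
        _ = t := by ring
    constructor <;> linarith
  · have hm : min (t / δ) 1 = 1 := min_eq_right ((one_le_div hδ).mpr hle)
    rw [hm]
    constructor <;> linarith

/-- The implementing matrices may be taken inside any ideal containing the left-hand side. -/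
theorem AmpSub.in_ideal (B : TwoSidedIdeal A) {ι κ : Type} [Fintype ι] [Fintype κ]
    [DecidableEq ι] {h b : A} (hh : 0 ≤ h) (hhB : h ∈ B) (H : AmpSub ι κ h b) :
    ∀ ε : ℝ, 0 < ε → ∃ r : κ → ι → A, (∀ k i, r k i ∈ B) ∧ ∀ i j : ι,
      ‖∑ k, star (r k i) * b * r k j - (if i = j then h else 0)‖ < ε := by
  intro ε hε
  have hδ : 0 < ε / 2 := by positivity
  set G : A := psi (ε / 2) h with hG
  have hGB : G ∈ B := psi_mem hδ hh B hhB
  have hGsa : star G = G := psi_selfAdjoint _ h
  have hGn : ‖G‖ ≤ 1 := norm_psi_le hδ hh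
  have hGh : ‖G * h * G - h‖ ≤ ε / 2 := psi_conj_norm hδ hh
  obtain ⟨r, hr⟩ := H (ε / 2) hδ
  refine ⟨fun k i => r k i * G, fun k i => B.mul_mem_left _ _ hGB, fun i j => ?_⟩
  have h1 : ∑ k, star (r k i * G) * b * (r k j * G) - (if i = j then h else 0)
      = G * (∑ k, star (r k i) * b * r k j - (if i = j then h else 0)) * G
        + (if i = j then G * h * G - h else 0) := by
    rw [mul_sub, sub_mul, Finset.mul_sum, Finset.sum_mul]
    have h2 : ∀ k, star (r k i * G) * b * (r k j * G) = G * (star (r k i) * b * r k j) * G := by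
      intro k
      rw [star_mul, hGsa]; noncomm_ring
    simp only [h2]
    by_cases hij : i = j
    · simp only [hij, if_true]; abel
    · simp only [hij, if_false]; simp
  rw [h1]
  have h3 : ‖G * (∑ k, star (r k i) * b * r k j - (if i = j then h else 0)) * G‖ < ε / 2 := by
    calc ‖G * (∑ k, star (r k i) * b * r k j - (if i = j then h else 0)) * G‖
        ≤ ‖G * (∑ k, star (r k i) * b * r k j - (if i = j then h else 0))‖ * ‖G‖ :=
          norm_mul_le _ _
      _ ≤ ‖G‖ * ‖∑ k, star (r k i) * b * r k j - (if i = j then h else 0)‖ * ‖G‖ :=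
          mul_le_mul_of_nonneg_right (norm_mul_le _ _) (norm_nonneg _)
      _ ≤ 1 * ‖∑ k, star (r k i) * b * r k j - (if i = j then h else 0)‖ * 1 := by
          gcongr
      _ = ‖∑ k, star (r k i) * b * r k j - (if i = j then h else 0)‖ := by ring
      _ < ε / 2 := hr i j
  have h4 : ‖(if i = j then G * h * G - h else 0)‖ ≤ ε / 2 := by
    by_cases hij : i = j
    · simp only [hij, if_true]; exact hGh
    · simp only [hij, if_false, norm_zero]; exact hδ.le
  calc ‖G * (∑ k, star (r k i) * b * r k j - (if i = j then h else 0)) * G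
        + (if i = j then G * h * G - h else 0)‖
      ≤ ‖G * (∑ k, star (r k i) * b * r k j - (if i = j then h else 0)) * G‖
        + ‖(if i = j then G * h * G - h else 0)‖ := norm_add_le _ _
    _ < ε / 2 + ε / 2 := add_lt_add_of_lt_of_le h3 h4
    _ = ε := by ring

end Unital

section NonUnital

open Unitization

variable {A : Type*} [NonUnitalCStarAlgebra A] [PartialOrder A] [StarOrderedRing A]

omit [PartialOrder A] [StarOrderedRing A] in
theorem eq_inr_snd {x : Unitization ℂ A} (hx : x.fst = 0) : x = (x.snd : Unitization ℂ A) := by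
  have h := inl_fst_add_inr_snd_eq x
  rw [hx, inl_zero, zero_add] at h
  exact h.symm

/-- The ideal `A` of its unitization. -/
def inrIdeal (A : Type*) [NonUnitalCStarAlgebra A] : TwoSidedIdeal (Unitization ℂ A) :=
  TwoSidedIdeal.mk' {x | x.fst = 0}
    (show (0 : Unitization ℂ A).fst = 0 from fst_zero)
    (fun {x y} (hx : x.fst = 0) (hy : y.fst = 0) =>
      show (x + y).fst = 0 by rw [fst_add, hx, hy, add_zero])
    (fun {x} (hx : x.fst = 0) => show (-x).fst = 0 by rw [fst_neg, hx, neg_zero])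
    (fun {x y} (hy : y.fst = 0) => show (x * y).fst = 0 by rw [fst_mul, hy, mul_zero])
    (fun {x y} (hx : x.fst = 0) => show (x * y).fst = 0 by rw [fst_mul, hx, zero_mul])

omit [PartialOrder A] [StarOrderedRing A] in
theorem mem_inrIdeal (x : Unitization ℂ A) : x ∈ inrIdeal A ↔ x.fst = 0 := by
  unfold inrIdeal
  rw [TwoSidedIdeal.mem_mk']
  rfl

omit [PartialOrder A] [StarOrderedRing A] in
theorem inr_mem_inrIdeal (a : A) : (a : Unitization ℂ A) ∈ inrIdeal A := by
  rw [mem_inrIdeal, fst_inr]

omit [PartialOrder A] [StarOrderedRing A] in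
theorem isClosed_inrIdeal : IsClosed (inrIdeal A : Set (Unitization ℂ A)) := by
  have : (inrIdeal A : Set (Unitization ℂ A)) = (fun x : Unitization ℂ A => x.fst) ⁻¹' {0} := by
    ext x
    simp only [SetLike.mem_coe, mem_inrIdeal, Set.mem_preimage, Set.mem_singleton_iff]
  rw [this]
  exact isClosed_singleton.preimage Unitization.continuous_fst

/-- Pull back a two-sided ideal of the unitization to `A`. -/
def pullIdeal (I : TwoSidedIdeal (Unitization ℂ A)) : TwoSidedIdeal A :=
  TwoSidedIdeal.mk' {a | (a : Unitization ℂ A) ∈ I}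
    (show ((0 : A) : Unitization ℂ A) ∈ I by rw [inr_zero]; exact I.zero_mem)
    (fun {x y} (hx : (x : Unitization ℂ A) ∈ I) (hy : (y : Unitization ℂ A) ∈ I) =>
      show ((x + y : A) : Unitization ℂ A) ∈ I by rw [inr_add]; exact I.add_mem hx hy)
    (fun {x} (hx : (x : Unitization ℂ A) ∈ I) =>
      show ((-x : A) : Unitization ℂ A) ∈ I by rw [inr_neg]; exact I.neg_mem hx)
    (fun {x y} (hy : (y : Unitization ℂ A) ∈ I) =>
      show ((x * y : A) : Unitization ℂ A) ∈ I by rw [inr_mul]; exact I.mul_mem_left _ _ hy)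
    (fun {x y} (hx : (x : Unitization ℂ A) ∈ I) =>
      show ((x * y : A) : Unitization ℂ A) ∈ I by rw [inr_mul]; exact I.mul_mem_right _ _ hx)

omit [PartialOrder A] [StarOrderedRing A] in
theorem mem_pullIdeal (I : TwoSidedIdeal (Unitization ℂ A)) (a : A) :
    a ∈ pullIdeal I ↔ (a : Unitization ℂ A) ∈ I := by
  unfold pullIdeal
  rw [TwoSidedIdeal.mem_mk']
  rfl

omit [PartialOrder A] [StarOrderedRing A] in
theorem isClosed_pullIdeal (I : TwoSidedIdeal (Unitization ℂ A))
    (hI : IsClosed (I : Set (Unitization ℂ A))) : IsClosed (pullIdeal I : Set A) := by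
  have : (pullIdeal I : Set A) = (fun a : A => (a : Unitization ℂ A)) ⁻¹' (I : Set _) := by
    ext a
    simp only [SetLike.mem_coe, mem_pullIdeal, Set.mem_preimage]
  rw [this]
  exact hI.preimage Unitization.continuous_inr

omit [PartialOrder A] [StarOrderedRing A] in
theorem chainIn_inrIdeal
    (hchain : ∀ I J : TwoSidedIdeal A, IsClosed (I : Set A) → IsClosed (J : Set A) →
      I ≤ J ∨ J ≤ I) : ChainIn (inrIdeal A) := by
  intro I J hI hJ hIB hJB
  rcases hchain (pullIdeal I) (pullIdeal J) (isClosed_pullIdeal I hI) (isClosed_pullIdeal J hJ)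
    with h | h
  · left
    intro x hx
    have hx0 : x.fst = 0 := (mem_inrIdeal x).mp (hIB hx)
    rw [eq_inr_snd hx0] at hx ⊢
    exact (mem_pullIdeal J _).mp (h ((mem_pullIdeal I _).mpr hx))
  · right
    intro x hx
    have hx0 : x.fst = 0 := (mem_inrIdeal x).mp (hJB hx)
    rw [eq_inr_snd hx0] at hx ⊢
    exact (mem_pullIdeal I _).mp (h ((mem_pullIdeal J _).mpr hx))

omit [PartialOrder A] [StarOrderedRing A] in
theorem inr_gram {ι κ : Type} [Fintype κ] [DecidableEq ι] (r : κ → ι → A) (a h : A) (i j : ι) :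
    ∑ k, star ((r k i : A) : Unitization ℂ A) * (h : Unitization ℂ A) * (r k j : Unitization ℂ A)
        - (if i = j then (a : Unitization ℂ A) else 0)
      = ((∑ k, star (r k i) * h * r k j - (if i = j then a else 0) : A) : Unitization ℂ A) := by
  have hsum : ((∑ k, star (r k i) * h * r k j : A) : Unitization ℂ A)
      = ∑ k, ((star (r k i) * h * r k j : A) : Unitization ℂ A) :=
    map_sum (inrNonUnitalStarAlgHom ℂ A) _ _
  rw [inr_sub, hsum]
  congr 1
  · refine Finset.sum_congr rfl fun k _ => ?_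
    rw [inr_mul, inr_mul, inr_star]
  · by_cases hij : i = j <;> simp [hij]

/-- **Weakly purely infinite implies purely infinite** for (possibly non-unital) C*-algebras
whose closed two-sided ideals are totally ordered. -/
theorem pi_of_wpi_nonunital
    (hchain : ∀ I J : TwoSidedIdeal A, IsClosed (I : Set A) → IsClosed (J : Set A) →
      I ≤ J ∨ J ≤ I)
    (n : ℕ) (hn : 1 ≤ n)
    (hwpi : ∀ h : A, 0 ≤ h → ∀ ε : ℝ, 0 < ε → ∃ r : Fin n → Fin (2 * n) → A,
      ∀ i j : Fin (2 * n),
        ‖∑ k : Fin n, star (r k i) * h * r k j - (if i = j then h else 0)‖ < ε) :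
    ∀ h : A, 0 ≤ h → ∀ ε : ℝ, 0 < ε → ∃ r : Fin 1 → Fin 2 → A, ∀ i j : Fin 2,
      ‖∑ k : Fin 1, star (r k i) * h * r k j - (if i = j then h else 0)‖ < ε := by
  have hpi : ∀ h : Unitization ℂ A, h ∈ inrIdeal A → 0 ≤ h →
      AmpSub (Fin (2 * n)) (Fin n) h h := by
    intro h hhB hh ε hε
    have hfst : h.fst = 0 := (mem_inrIdeal h).mp hhB
    have hh' : 0 ≤ h.snd := by
      rw [eq_inr_snd hfst] at hh
      exact inr_nonneg_iff.mp hh
    obtain ⟨r, hr⟩ := hwpi h.snd hh' ε hε
    refine ⟨fun k i => (r k i : Unitization ℂ A), fun i j => ?_⟩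
    rw [eq_inr_snd hfst, inr_gram r h.snd h.snd i j, norm_inr]
    exact hr i j
  intro h hh ε hε
  have hh' : 0 ≤ (h : Unitization ℂ A) := inr_nonneg_iff.mpr hh
  have H := pi_of_wpi_rel (inrIdeal A) isClosed_inrIdeal (chainIn_inrIdeal hchain) n hn hpi
    (h : Unitization ℂ A) (inr_mem_inrIdeal h) hh'
  obtain ⟨R, hRB, hR⟩ := AmpSub.in_ideal (inrIdeal A) hh' (inr_mem_inrIdeal h) H ε hε
  refine ⟨fun k i => (R k i).snd, fun i j => ?_⟩
  have h1 : ∀ k i, R k i = (((R k i).snd : A) : Unitization ℂ A) := fun k i =>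
    eq_inr_snd ((mem_inrIdeal _).mp (hRB k i))
  have h2 := hR i j
  rw [show (∑ k, star (R k i) * (h : Unitization ℂ A) * R k j - (if i = j then (h : Unitization ℂ A) else 0))
      = ∑ k, star (((R k i).snd : A) : Unitization ℂ A) * (h : Unitization ℂ A)
          * (((R k j).snd : A) : Unitization ℂ A) - (if i = j then (h : Unitization ℂ A) else 0) from by
        congr 1
        refine Finset.sum_congr rfl fun k _ => ?_
        rw [← h1 k i, ← h1 k j]] at h2
  rw [inr_gram (fun k i => (R k i).snd) h h i j, norm_inr] at h2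
  exact h2

end NonUnital

end Vale.Agent.H36.PI
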