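import Vale.Agent.H36.PI.Cuts

/-!
# Purely infinite implies strongly purely infinite for totally ordered ideal lattices

Relative form: `B` is a closed two-sided ideal of a unital C*-algebra `A` whose closed
two-sided sub-ideals are totally ordered and all of whose positive elements are properly
infinite. Then for positive `x, y ∈ B` and `ε > 0` there are `s, t` with
`‖s* x² s - x²‖ < ε`, `‖t* y² t - y²‖ < ε`, `‖s* x y t‖ < ε`.
-/

set_option linter.unusedSectionVars false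

namespace Vale.Agent.H36.PI

variable {A : Type*} [CStarAlgebra A] [PartialOrder A] [StarOrderedRing A]

/-- Comparison data for `x, y` relative to two ideals `P, Q`: elements `s, t` making
`s* x y t` arbitrarily small while `s* x² s` and `t* y² t` stay uniformly large modulo
`P` and `Q` respectively. -/
def Good (P Q : TwoSidedIdeal A) (x y : A) : Prop :=
  ∃ γx γy : ℝ, 0 < γx ∧ 0 < γy ∧ ∀ η : ℝ, 0 < η → ∃ s t : A,
    ‖star s * (x * y) * t‖ ≤ η ∧ cut γx (star s * (x * x) * s) ∉ P ∧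
      cut γy (star t * (y * y) * t) ∉ Q

theorem Good.symm {P Q : TwoSidedIdeal A} {x y : A} (hx : IsSelfAdjoint x)
    (hy : IsSelfAdjoint y) (h : Good P Q x y) : Good Q P y x := by
  obtain ⟨γx, γy, hγx, hγy, H⟩ := h
  refine ⟨γy, γx, hγy, hγx, fun η hη => ?_⟩
  obtain ⟨s, t, h1, h2, h3⟩ := H η hη
  refine ⟨t, s, ?_, h3, h2⟩
  have : star t * (y * x) * s = star (star s * (x * y) * t) := by
    rw [star_mul, star_mul, star_mul, star_star, hx.star_eq, hy.star_eq]; noncomm_ring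
  rw [this, norm_star]; exact h1

theorem good_of_ab (P Q : TwoSidedIdeal A) (hP : IsClosed (P : Set A))
    (hQ : IsClosed (Q : Set A)) {x y : A} (hx : IsSelfAdjoint x) (hy : IsSelfAdjoint y)
    (a b : A) (hZ : star a * (x * y) * b ∈ Q) (hxa : star a * (x * x) * a ∉ P)
    (hyb : star b * (y * y) * b ∉ Q) : Good P Q x y := by
  have hbx0 : 0 ≤ star a * (x * x) * a := conj_sq_nonneg hx a
  have hby0 : 0 ≤ star b * (y * y) * b := conj_sq_nonneg hy b
  obtain ⟨γx, hγx, hcx⟩ := exists_cut_not_mem P hP hbx0 hxa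
  obtain ⟨γy, hγy, hcy⟩ := exists_cut_not_mem Q hQ hby0 hyb
  refine ⟨γx, γy, hγx, hγy, fun η hη => ?_⟩
  have hη2 : 0 < η ^ 2 := by positivity
  have hGQ : psi (η ^ 2) (star (star a * (x * y) * b) * (star a * (x * y) * b)) ∈ Q :=
    psi_mem hη2 (star_mul_self_nonneg _) Q (Q.mul_mem_left _ _ hZ)
  have hGsa : star (psi (η ^ 2) (star (star a * (x * y) * b) * (star a * (x * y) * b)))
      = psi (η ^ 2) (star (star a * (x * y) * b) * (star a * (x * y) * b)) :=
    psi_selfAdjoint _ _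
  have hnorm := norm_mul_one_sub_psi hη2 (star a * (x * y) * b)
  generalize psi (η ^ 2) (star (star a * (x * y) * b) * (star a * (x * y) * b)) = G
    at hGQ hGsa hnorm
  refine ⟨a, b * (1 - G), ?_, hcx, ?_⟩
  · have h1 : star a * (x * y) * (b * (1 - G)) = star a * (x * y) * b * (1 - G) := by
      noncomm_ring
    rw [h1]
    exact (pow_le_pow_iff_left₀ (norm_nonneg _) hη.le two_ne_zero).mp hnorm
  · intro hmem
    apply hcy
    have hsa' : IsSelfAdjoint (star (b * (1 - G)) * (y * y) * (b * (1 - G))) :=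
      (conj_sq_nonneg hy _).isSelfAdjoint
    refine cut_mem_of_sub_mem Q hQ hby0 hsa' ?_ hmem
    have h3 : star b * (y * y) * b - star (b * (1 - G)) * (y * y) * (b * (1 - G))
        = G * (star b * (y * y) * b) + (star b * (y * y) * b) * G
          - G * (star b * (y * y) * b) * G := by
      rw [star_mul, star_sub, star_one, hGsa]; noncomm_ring
    rw [h3]
    exact Q.sub_mem (Q.add_mem (Q.mul_mem_right _ _ hGQ) (Q.mul_mem_left _ _ hGQ))
      (Q.mul_mem_right _ _ (Q.mul_mem_right _ _ hGQ))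

/-- The key construction: if `x y ∉ Q`, there are `a, b` with `a* x y b ∈ Q` while
`x a ∉ Q` and `y b ∉ Q`. -/
theorem exists_ab (B : TwoSidedIdeal A) (hB : IsClosed (B : Set A)) (hch : ChainIn B)
    (hpi : ∀ h : A, h ∈ B → 0 ≤ h → AmpSub (Fin (2 * 1)) (Fin 1) h h)
    (Q : TwoSidedIdeal A) (hQ : IsClosed (Q : Set A))
    {x y : A} (hx : 0 ≤ x) (hy : 0 ≤ y) (hxB : x ∈ B) (hz : x * y ∉ Q) :
    ∃ a b : A, star a * (x * y) * b ∈ Q ∧ x * a ∉ Q ∧ y * b ∉ Q := by
  have hxsa : star x = x := hx.isSelfAdjoint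
  have hysa : star y = y := hy.isSelfAdjoint
  obtain ⟨K, hK⟩ : ∃ K : A, K = x * (y * y) * x := ⟨_, rfl⟩
  have hK0 : 0 ≤ K := by
    have : K = star (y * x) * (y * x) := by rw [hK, star_mul, hxsa, hysa]; noncomm_ring
    rw [this]; exact star_mul_self_nonneg _
  have hKsa : IsSelfAdjoint K := hK0.isSelfAdjoint
  have hKQ : K ∉ Q := by
    intro h
    apply hz
    have h1 : star (star (x * y)) * star (x * y) ∈ Q := by
      have : star (star (x * y)) * star (x * y) = K := by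
        rw [star_star, star_mul, hxsa, hysa, hK]; noncomm_ring
      rw [this]; exact h
    have h2 := mem_of_star_mul_self_mem Q hQ h1
    have h3 := star_mem_of_mem Q hQ h2
    rwa [star_star] at h3
  by_cases h1 : ∃ τ : ℝ, 0 < τ ∧ x * ncut τ K ∉ Q ∧ cut τ K ∉ Q
  · obtain ⟨τ, hτ, hxn, hcQ⟩ := h1
    refine ⟨ncut τ K, y * x * cut τ K, ?_, hxn, ?_⟩
    · have : star (ncut τ K) * (x * y) * (y * x * cut τ K) = ncut τ K * K * cut τ K := by
        rw [(ncut_selfAdjoint τ K).star_eq, hK]; noncomm_ring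
      rw [this, ncut_mul_mul_cut hKsa τ]
      exact Q.zero_mem
    · intro h
      apply hcQ
      apply cut_mem_of_mul_cut_mem Q hQ hK0 hτ.le
      have : K * cut τ K = x * (y * (y * x * cut τ K)) := by rw [hK]; noncomm_ring
      rw [this]
      exact Q.mul_mem_left _ _ h
  · have h1' : ∀ τ : ℝ, 0 < τ → cut τ K ∉ Q → x * ncut τ K ∈ Q := by
      intro τ hτ hc
      by_contra hn
      exact h1 ⟨τ, hτ, hn, hc⟩
    obtain ⟨τ₁, hτ₁, hτ₁Q⟩ := exists_cut_not_mem Q hQ hK0 hKQ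
    have hSne : {τ : ℝ | 0 < τ ∧ cut τ K ∉ Q}.Nonempty := ⟨τ₁, hτ₁, hτ₁Q⟩
    have hSbdd : BddAbove {τ : ℝ | 0 < τ ∧ cut τ K ∉ Q} := by
      refine ⟨‖K‖, fun τ hτ => ?_⟩
      by_contra hlt
      rw [not_le] at hlt
      exact hτ.2 (cut_mem_of_norm_le Q hQ hK0 hlt.le)
    obtain ⟨t₀, ht₀⟩ : ∃ t₀ : ℝ, t₀ = sSup {τ : ℝ | 0 < τ ∧ cut τ K ∉ Q} := ⟨_, rfl⟩
    have ht₀pos : 0 < t₀ := by
      rw [ht₀]
      exact lt_of_lt_of_le hτ₁ (le_csSup hSbdd ⟨hτ₁, hτ₁Q⟩)
    have hcut0 : cut t₀ K ∈ Q := by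
      have hcl : cut t₀ K ∈ closure (Q : Set A) := by
        rw [Metric.mem_closure_iff]
        intro ε hε
        refine ⟨cut (t₀ + ε / 2) K, ?_, ?_⟩
        · by_contra hn
          have hmem : t₀ + ε / 2 ∈ {τ : ℝ | 0 < τ ∧ cut τ K ∉ Q} := ⟨by positivity, hn⟩
          have := le_csSup hSbdd hmem
          rw [← ht₀] at this
          linarith
        · rw [dist_eq_norm]
          have := norm_cut_sub_cut_le hKsa t₀ (t₀ + ε / 2)
          have h2 : |t₀ - (t₀ + ε / 2)| = ε / 2 := by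
            rw [show t₀ - (t₀ + ε / 2) = -(ε / 2) by ring, abs_neg, abs_of_pos (by positivity)]
          linarith
      rwa [hQ.closure_eq] at hcl
    have hncut0 : x * ncut t₀ K ∈ Q := by
      have hcl : x * ncut t₀ K ∈ closure (Q : Set A) := by
        rw [Metric.mem_closure_iff]
        intro ε hε
        have hden : 0 < 2 * (‖x‖ + 1) := by positivity
        have hdiv : 0 < ε / (2 * (‖x‖ + 1)) := div_pos hε hden
        obtain ⟨τ, hτdef⟩ : ∃ τ : ℝ, τ = max (t₀ / 2) (t₀ - ε / (2 * (‖x‖ + 1))) := ⟨_, rfl⟩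
        have hτpos : 0 < τ := by
          rw [hτdef]; exact lt_of_lt_of_le (by positivity) (le_max_left _ _)
        have hτlt : τ < t₀ := by
          rw [hτdef]; exact max_lt (by linarith) (by linarith)
        have hτlt' : τ < sSup {τ : ℝ | 0 < τ ∧ cut τ K ∉ Q} := by rw [← ht₀]; exact hτlt
        obtain ⟨τ', hτ'S, hττ'⟩ := exists_lt_of_lt_csSup hSne hτlt'
        have hτQ : cut τ K ∉ Q := by
          intro h
          apply hτ'S.2
          exact mem_of_nonneg_of_le Q hQ (cut_nonneg _ _) (cut_anti hττ'.le K) h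
        refine ⟨x * ncut τ K, h1' τ hτpos hτQ, ?_⟩
        rw [dist_eq_norm, ← mul_sub]
        have h2 := norm_ncut_sub_ncut_le hKsa t₀ τ
        have h3 : |t₀ - τ| ≤ ε / (2 * (‖x‖ + 1)) := by
          rw [abs_of_pos (by linarith)]
          have := le_max_right (t₀ / 2) (t₀ - ε / (2 * (‖x‖ + 1)))
          rw [← hτdef] at this
          linarith
        calc ‖x * (ncut t₀ K - ncut τ K)‖ ≤ ‖x‖ * ‖ncut t₀ K - ncut τ K‖ := norm_mul_le _ _
          _ ≤ ‖x‖ * (ε / (2 * (‖x‖ + 1))) :=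
              mul_le_mul_of_nonneg_left (h2.trans h3) (norm_nonneg _)
          _ < ε := by
              rw [mul_div_assoc', div_lt_iff₀ hden]
              nlinarith [norm_nonneg x]
      rwa [hQ.closure_eq] at hcl
    have hxK : x * K - t₀ • x ∈ Q := by
      have : x * K - t₀ • x = x * cut t₀ K - x * ncut t₀ K := by
        rw [← mul_sub, ← sub_algebraMap_eq hKsa t₀, mul_sub, Algebra.algebraMap_eq_smul_one,
          mul_smul_comm, mul_one]
      rw [this]
      exact Q.sub_mem (Q.mul_mem_left _ _ hcut0) hncut0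
    have hxQ : x ∉ Q := fun h => hz (Q.mul_mem_right _ _ h)
    obtain ⟨ε₂, hε₂, hcQ⟩ := exists_cut_not_mem Q hQ hx hxQ
    have hψ : IsSelfAdjoint (psi ε₂ x) := psi_selfAdjoint _ x
    have hψB : psi ε₂ x ∈ B := psi_mem hε₂ hx B hxB
    have hcD : InD (psi ε₂ x) (cut ε₂ x) := psi_cut hε₂ hx
    obtain ⟨T, hTD, hTT, hTQ⟩ := exists_sqzero B hB hch Q hQ (le_refl 1) hpi hψ hψB
      (cut_nonneg _ _) hcD hcQ
    have hTsD : InD (psi ε₂ x) (star T) := hTD.star hψ
    have hψw : psi ε₂ x = cfc (fun t : ℝ => 1 / max t ε₂) x * x := psi_eq_mul hε₂ hx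
    generalize cfc (fun t : ℝ => 1 / max t ε₂) x = w at hψw
    generalize psi ε₂ x = ψ at hψ hψB hcD hTD hTsD hψw
    have key : ∀ V : A, w * (x * K) * V - t₀ • (ψ * V) ∈ Q := by
      intro V
      have : w * (x * K) * V - t₀ • (ψ * V) = w * (x * K - t₀ • x) * V := by
        rw [hψw, mul_sub, sub_mul, mul_smul_comm, smul_mul_assoc]
      rw [this]
      exact Q.mul_mem_right _ _ (Q.mul_mem_left _ _ hxK)
    refine ⟨star T, y * x * T, ?_, ?_, ?_⟩
    · have e0 : T * (w * (x * K) * T - t₀ • (ψ * T)) = T * (w * (x * K) * T) := by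
        rw [mul_sub, mul_smul_comm, hTD.1, hTT, smul_zero, sub_zero]
      have e1 : star (star T) * (x * y) * (y * x * T) = T * (w * (x * K) * T) := by
        rw [star_star]
        calc T * (x * y) * (y * x * T) = T * K * T := by rw [hK]; noncomm_ring
          _ = (T * ψ) * K * T := by rw [hTD.2]
          _ = T * (w * (x * K) * T) := by rw [hψw]; noncomm_ring
      rw [e1, ← e0]
      exact Q.mul_mem_left _ _ (key T)
    · intro h
      apply hTQ
      have h2 : star T ∈ Q := by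
        have : star T = w * (x * star T) := by
          rw [← mul_assoc, ← hψw, hTsD.1]
        rw [this]; exact Q.mul_mem_left _ _ h
      have h3 := star_mem_of_mem Q hQ h2
      rwa [star_star] at h3
    · intro h
      apply hTQ
      have h2 : K * T ∈ Q := by
        have : K * T = x * (y * (y * x * T)) := by rw [hK]; noncomm_ring
        rw [this]; exact Q.mul_mem_left _ _ h
      have h3 : w * (x * K) * T ∈ Q := by
        have : w * (x * K) * T = w * x * (K * T) := by noncomm_ring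
        rw [this]; exact Q.mul_mem_left _ _ h2
      have h4 : t₀ • (ψ * T) ∈ Q := by
        have := Q.sub_mem h3 (key T)
        rwa [sub_sub_cancel] at this
      rw [hTD.1] at h4
      have h5 := real_smul_mem Q t₀⁻¹ h4
      rwa [smul_smul, inv_mul_cancel₀ ht₀pos.ne', one_smul] at h5

theorem good_of_le (B : TwoSidedIdeal A) (hB : IsClosed (B : Set A)) (hch : ChainIn B)
    (hpi : ∀ h : A, h ∈ B → 0 ≤ h → AmpSub (Fin (2 * 1)) (Fin 1) h h)
    (P Q : TwoSidedIdeal A) (hP : IsClosed (P : Set A)) (hQ : IsClosed (Q : Set A))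
    (hPQ : P ≤ Q) {x y : A} (hx : 0 ≤ x) (hy : 0 ≤ y) (hxB : x ∈ B)
    (hxP : x * x ∉ P) (hyQ : y * y ∉ Q) : Good P Q x y := by
  have hxsa : IsSelfAdjoint x := hx.isSelfAdjoint
  have hysa : IsSelfAdjoint y := hy.isSelfAdjoint
  by_cases hz : x * y ∈ Q
  · apply good_of_ab P Q hP hQ hxsa hysa 1 1
    · simpa using hz
    · simpa using hxP
    · simpa using hyQ
  · obtain ⟨a, b, hZ, hxa, hyb⟩ := exists_ab B hB hch hpi Q hQ hx hy hxB hz
    apply good_of_ab P Q hP hQ hxsa hysa a b hZ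
    · intro h
      apply hxa
      apply mem_of_star_mul_self_mem Q hQ
      have : star (x * a) * (x * a) = star a * (x * x) * a := by
        rw [star_mul, hxsa.star_eq]; noncomm_ring
      rw [this]; exact hPQ h
    · intro h
      apply hyb
      apply mem_of_star_mul_self_mem Q hQ
      have : star (y * b) * (y * b) = star b * (y * y) * b := by
        rw [star_mul, hysa.star_eq]; noncomm_ring
      rw [this]; exact h

/-- If `(b - γ)_+` is not in the large ideal missing `e`, then `e ≾ b` with an implementing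
element of norm at most `sqrt ((‖e‖ + ε) / γ)`. -/
theorem dominate (B : TwoSidedIdeal A) (hB : IsClosed (B : Set A)) (hch : ChainIn B)
    (hpi : ∀ h : A, h ∈ B → 0 ≤ h → AmpSub (Fin (2 * 1)) (Fin 1) h h)
    {e : A} (he : e ≠ 0) (he0 : 0 ≤ e) {b : A} (hb : 0 ≤ b) (hbB : b ∈ B) {γ : ℝ}
    (hγ : 0 < γ) (hcut : cut γ b ∉ bigIdeal B hch e he) {ε : ℝ} (hε : 0 < ε) :
    ∃ d : A, ‖star d * b * d - e‖ < ε ∧ ‖d‖ ^ 2 ≤ γ⁻¹ * (‖e‖ + ε) := by
  have hY0 : 0 ≤ cut γ b := cut_nonneg _ _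
  have hYB : cut γ b ∈ B := cut_mem B hB hγ.le hb hbB
  have hpiY := hpi (cut γ b) hYB hY0
  have heJ : e ∈ domIdeal B hpiY := by
    by_contra hnot
    have hle := le_bigIdeal B hch e he (domIdeal B hpiY) (isClosed_domIdeal B hB hpiY)
      (domIdeal_le B hpiY) hnot
    exact hcut (hle (self_mem_domIdeal B (le_refl 1) hY0 hYB hpiY))
  have hsqrt : CFC.sqrt e ∈ domIdeal B hpiY :=
    sqrt_mem_of_le _ (isClosed_domIdeal B hB hpiY) he0 le_rfl heJ
  have s1 : AmpSub Unit (Fin 1) e (cut γ b) := by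
    have := ((mem_domIdeal B hpiY _).mp hsqrt).2
    rwa [(CFC.sqrt_nonneg e).isSelfAdjoint.star_eq, CFC.sqrt_mul_sqrt_self e he0] at this
  obtain ⟨r, hr⟩ := s1 ε hε
  have h1 : ‖star (r 0 ()) * cut γ b * r 0 () - e‖ < ε := by simpa using hr () ()
  obtain ⟨h2, h3⟩ := kfun_bound hγ hb (r 0 ())
  refine ⟨kfun γ b * r 0 (), ?_, ?_⟩
  · rw [h2]; exact h1
  · calc ‖kfun γ b * r 0 ()‖ ^ 2 ≤ γ⁻¹ * ‖star (r 0 ()) * cut γ b * r 0 ()‖ := h3
      _ ≤ γ⁻¹ * (‖e‖ + ε) := by
          apply mul_le_mul_of_nonneg_left _ (inv_pos.mpr hγ).le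
          have : ‖star (r 0 ()) * cut γ b * r 0 ()‖
              ≤ ‖star (r 0 ()) * cut γ b * r 0 () - e‖ + ‖e‖ := by
            calc ‖star (r 0 ()) * cut γ b * r 0 ()‖
                = ‖(star (r 0 ()) * cut γ b * r 0 () - e) + e‖ := by rw [sub_add_cancel]
              _ ≤ _ := norm_add_le _ _
          linarith

theorem spi_of_good (B : TwoSidedIdeal A) (hB : IsClosed (B : Set A)) (hch : ChainIn B)
    (hpi : ∀ h : A, h ∈ B → 0 ≤ h → AmpSub (Fin (2 * 1)) (Fin 1) h h)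
    {x y : A} (hx : IsSelfAdjoint x) (hy : IsSelfAdjoint y) (hxB : x ∈ B) (hyB : y ∈ B)
    {ex ey : A} (hex : ex ≠ 0) (hey : ey ≠ 0) (hex0 : 0 ≤ ex) (hey0 : 0 ≤ ey)
    (hgood : Good (bigIdeal B hch ex hex) (bigIdeal B hch ey hey) x y) {ε : ℝ} (hε : 0 < ε) :
    ∃ s t : A, ‖star s * (x * x) * s - ex‖ < ε ∧ ‖star t * (y * y) * t - ey‖ < ε ∧
      ‖star s * (x * y) * t‖ < ε := by
  obtain ⟨γx, γy, hγx, hγy, H⟩ := hgood
  obtain ⟨Cx, hCx⟩ : ∃ Cx : ℝ, Cx = γx⁻¹ * (‖ex‖ + ε) := ⟨_, rfl⟩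
  obtain ⟨Cy, hCy⟩ : ∃ Cy : ℝ, Cy = γy⁻¹ * (‖ey‖ + ε) := ⟨_, rfl⟩
  have hCx0 : 0 < Cx := by rw [hCx]; positivity
  have hCy0 : 0 < Cy := by rw [hCy]; positivity
  have hsx : 0 < Real.sqrt Cx := Real.sqrt_pos.mpr hCx0
  have hsy : 0 < Real.sqrt Cy := Real.sqrt_pos.mpr hCy0
  have hη0 : 0 < ε / (2 * (Real.sqrt Cx * Real.sqrt Cy)) := by positivity
  obtain ⟨s₀, t₀, h1, h2, h3⟩ := H _ hη0
  have hbx0 := conj_sq_nonneg hx s₀
  have hby0 := conj_sq_nonneg hy t₀
  have hbxB : star s₀ * (x * x) * s₀ ∈ B :=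
    B.mul_mem_right _ _ (B.mul_mem_left _ _ (B.mul_mem_left _ _ hxB))
  have hbyB : star t₀ * (y * y) * t₀ ∈ B :=
    B.mul_mem_right _ _ (B.mul_mem_left _ _ (B.mul_mem_left _ _ hyB))
  obtain ⟨dx, hdx1, hdx2⟩ := dominate B hB hch hpi hex hex0 hbx0 hbxB hγx h2 hε
  obtain ⟨dy, hdy1, hdy2⟩ := dominate B hB hch hpi hey hey0 hby0 hbyB hγy h3 hε
  rw [← hCx] at hdx2
  rw [← hCy] at hdy2
  have hdxn : ‖dx‖ ≤ Real.sqrt Cx := Real.le_sqrt_of_sq_le hdx2
  have hdyn : ‖dy‖ ≤ Real.sqrt Cy := Real.le_sqrt_of_sq_le hdy2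
  refine ⟨s₀ * dx, t₀ * dy, ?_, ?_, ?_⟩
  · have : star (s₀ * dx) * (x * x) * (s₀ * dx) = star dx * (star s₀ * (x * x) * s₀) * dx := by
      rw [star_mul]; noncomm_ring
    rw [this]; exact hdx1
  · have : star (t₀ * dy) * (y * y) * (t₀ * dy) = star dy * (star t₀ * (y * y) * t₀) * dy := by
      rw [star_mul]; noncomm_ring
    rw [this]; exact hdy1
  · have : star (s₀ * dx) * (x * y) * (t₀ * dy) = star dx * (star s₀ * (x * y) * t₀) * dy := by
      rw [star_mul]; noncomm_ring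
    rw [this]
    calc ‖star dx * (star s₀ * (x * y) * t₀) * dy‖
        ≤ ‖star dx * (star s₀ * (x * y) * t₀)‖ * ‖dy‖ := norm_mul_le _ _
      _ ≤ ‖star dx‖ * ‖star s₀ * (x * y) * t₀‖ * ‖dy‖ :=
          mul_le_mul_of_nonneg_right (norm_mul_le _ _) (norm_nonneg _)
      _ ≤ Real.sqrt Cx * (ε / (2 * (Real.sqrt Cx * Real.sqrt Cy))) * Real.sqrt Cy := by
          rw [norm_star]; gcongr
      _ = ε / 2 := by field_simp
      _ < ε := by linarith

/-- **Relative main theorem (strong pure infiniteness).** -/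
theorem spi_rel (B : TwoSidedIdeal A) (hB : IsClosed (B : Set A)) (hch : ChainIn B)
    (hpi : ∀ h : A, h ∈ B → 0 ≤ h → AmpSub (Fin (2 * 1)) (Fin 1) h h)
    {x y : A} (hx : 0 ≤ x) (hy : 0 ≤ y) (hxB : x ∈ B) (hyB : y ∈ B) {ε : ℝ} (hε : 0 < ε) :
    ∃ s t : A, ‖star s * (x * x) * s - x * x‖ < ε ∧ ‖star t * (y * y) * t - y * y‖ < ε ∧
      ‖star s * (x * y) * t‖ < ε := by
  have hxsa : IsSelfAdjoint x := hx.isSelfAdjoint
  have hysa : IsSelfAdjoint y := hy.isSelfAdjoint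
  have hε3 : 0 < ε / 3 := by positivity
  have hax : 0 ≤ x * x := by
    have := star_mul_self_nonneg x; rwa [hxsa.star_eq] at this
  have hay : 0 ≤ y * y := by
    have := star_mul_self_nonneg y; rwa [hysa.star_eq] at this
  have hcx0 : 0 ≤ cut (ε / 3) (x * x) := cut_nonneg _ _
  have hcy0 : 0 ≤ cut (ε / 3) (y * y) := cut_nonneg _ _
  have hnx : ‖cut (ε / 3) (cut (ε / 3) (x * x)) - x * x‖ ≤ 2 * (ε / 3) := by
    have h1 := norm_cut_sub_le hε3.le hcx0
    have h2 := norm_cut_sub_le hε3.le hax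
    calc ‖cut (ε / 3) (cut (ε / 3) (x * x)) - x * x‖
        = ‖(cut (ε / 3) (cut (ε / 3) (x * x)) - cut (ε / 3) (x * x))
            + (cut (ε / 3) (x * x) - x * x)‖ := by congr 1; abel
      _ ≤ ‖cut (ε / 3) (cut (ε / 3) (x * x)) - cut (ε / 3) (x * x)‖
            + ‖cut (ε / 3) (x * x) - x * x‖ := norm_add_le _ _
      _ ≤ 2 * (ε / 3) := by linarith
  have hny : ‖cut (ε / 3) (cut (ε / 3) (y * y)) - y * y‖ ≤ 2 * (ε / 3) := by
    have h1 := norm_cut_sub_le hε3.le hcy0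
    have h2 := norm_cut_sub_le hε3.le hay
    calc ‖cut (ε / 3) (cut (ε / 3) (y * y)) - y * y‖
        = ‖(cut (ε / 3) (cut (ε / 3) (y * y)) - cut (ε / 3) (y * y))
            + (cut (ε / 3) (y * y) - y * y)‖ := by congr 1; abel
      _ ≤ ‖cut (ε / 3) (cut (ε / 3) (y * y)) - cut (ε / 3) (y * y)‖
            + ‖cut (ε / 3) (y * y) - y * y‖ := norm_add_le _ _
      _ ≤ 2 * (ε / 3) := by linarith
  by_cases hex0 : cut (ε / 3) (cut (ε / 3) (x * x)) = 0
  · rw [hex0] at hnx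
    refine ⟨0, 1, ?_, ?_, ?_⟩
    · have : star (0 : A) * (x * x) * 0 - x * x = 0 - x * x := by simp
      rw [this]; linarith
    · simpa using hε
    · simpa using hε
  by_cases hey0 : cut (ε / 3) (cut (ε / 3) (y * y)) = 0
  · rw [hey0] at hny
    refine ⟨1, 0, ?_, ?_, ?_⟩
    · simpa using hε
    · have : star (0 : A) * (y * y) * 0 - y * y = 0 - y * y := by simp
      rw [this]; linarith
    · simpa using hε
  have hP := isClosed_bigIdeal B hch _ hex0
  have hQ := isClosed_bigIdeal B hch _ hey0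
  have hcxP := not_mem_bigIdeal B hch hcx0 hε3 hex0
  have hcyQ := not_mem_bigIdeal B hch hcy0 hε3 hey0
  have hxP : x * x ∉ bigIdeal B hch _ hex0 := fun h => hcxP (cut_mem _ hP hε3.le hax h)
  have hyQ : y * y ∉ bigIdeal B hch _ hey0 := fun h => hcyQ (cut_mem _ hQ hε3.le hay h)
  have hgood : Good (bigIdeal B hch _ hex0) (bigIdeal B hch _ hey0) x y := by
    rcases hch _ _ hP hQ (bigIdeal_le B hB hch _ hex0) (bigIdeal_le B hB hch _ hey0)
      with hle | hle
    · exact good_of_le B hB hch hpi _ _ hP hQ hle hx hy hxB hxP hyQ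
    · exact (good_of_le B hB hch hpi _ _ hQ hP hle hy hx hyB hyQ hxP).symm hysa hxsa
  obtain ⟨s, t, h1, h2, h3⟩ := spi_of_good B hB hch hpi hxsa hysa hxB hyB hex0 hey0
    (cut_nonneg _ _) (cut_nonneg _ _) hgood hε3
  refine ⟨s, t, ?_, ?_, lt_trans h3 (by linarith)⟩
  · calc ‖star s * (x * x) * s - x * x‖
        = ‖(star s * (x * x) * s - cut (ε / 3) (cut (ε / 3) (x * x)))
            + (cut (ε / 3) (cut (ε / 3) (x * x)) - x * x)‖ := by congr 1; abel
      _ ≤ ‖star s * (x * x) * s - cut (ε / 3) (cut (ε / 3) (x * x))‖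
            + ‖cut (ε / 3) (cut (ε / 3) (x * x)) - x * x‖ := norm_add_le _ _
      _ < ε := by linarith
  · calc ‖star t * (y * y) * t - y * y‖
        = ‖(star t * (y * y) * t - cut (ε / 3) (cut (ε / 3) (y * y)))
            + (cut (ε / 3) (cut (ε / 3) (y * y)) - y * y)‖ := by congr 1; abel
      _ ≤ ‖star t * (y * y) * t - cut (ε / 3) (cut (ε / 3) (y * y))‖
            + ‖cut (ε / 3) (cut (ε / 3) (y * y)) - y * y‖ := norm_add_le _ _
      _ < ε := by linarith

theorem norm_mul_mul_le_of_le_one {G H D : A} (hG : ‖G‖ ≤ 1) (hH : ‖H‖ ≤ 1) :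
    ‖G * D * H‖ ≤ ‖D‖ := by
  calc ‖G * D * H‖ ≤ ‖G * D‖ * ‖H‖ := norm_mul_le _ _
    _ ≤ ‖G‖ * ‖D‖ * ‖H‖ := mul_le_mul_of_nonneg_right (norm_mul_le _ _) (norm_nonneg _)
    _ ≤ 1 * ‖D‖ * 1 := by gcongr
    _ = ‖D‖ := by ring

/-- In the relative main theorem the implementing elements may be taken inside `B`. -/
theorem spi_rel_in_ideal (B : TwoSidedIdeal A) (hB : IsClosed (B : Set A)) (hch : ChainIn B)
    (hpi : ∀ h : A, h ∈ B → 0 ≤ h → AmpSub (Fin (2 * 1)) (Fin 1) h h)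
    {x y : A} (hx : 0 ≤ x) (hy : 0 ≤ y) (hxB : x ∈ B) (hyB : y ∈ B) {ε : ℝ} (hε : 0 < ε) :
    ∃ s t : A, s ∈ B ∧ t ∈ B ∧ ‖star s * (x * x) * s - x * x‖ < ε ∧
      ‖star t * (y * y) * t - y * y‖ < ε ∧ ‖star s * (x * y) * t‖ < ε := by
  have hδ : 0 < ε / 2 := by positivity
  obtain ⟨s, t, h1, h2, h3⟩ := spi_rel B hB hch hpi hx hy hxB hyB hδ
  have hax : 0 ≤ x * x := by
    have := star_mul_self_nonneg x; rwa [hx.isSelfAdjoint.star_eq] at this
  have hay : 0 ≤ y * y := by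
    have := star_mul_self_nonneg y; rwa [hy.isSelfAdjoint.star_eq] at this
  have hGxB : psi (ε / 2) (x * x) ∈ B := psi_mem hδ hax B (B.mul_mem_left _ _ hxB)
  have hGyB : psi (ε / 2) (y * y) ∈ B := psi_mem hδ hay B (B.mul_mem_left _ _ hyB)
  have hGxsa : star (psi (ε / 2) (x * x)) = psi (ε / 2) (x * x) := psi_selfAdjoint _ _
  have hGysa : star (psi (ε / 2) (y * y)) = psi (ε / 2) (y * y) := psi_selfAdjoint _ _
  have hGxn : ‖psi (ε / 2) (x * x)‖ ≤ 1 := norm_psi_le hδ hax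
  have hGyn : ‖psi (ε / 2) (y * y)‖ ≤ 1 := norm_psi_le hδ hay
  have hGxh := psi_conj_norm hδ hax
  have hGyh := psi_conj_norm hδ hay
  generalize psi (ε / 2) (x * x) = Gx at hGxB hGxsa hGxn hGxh
  generalize psi (ε / 2) (y * y) = Gy at hGyB hGysa hGyn hGyh
  refine ⟨s * Gx, t * Gy, B.mul_mem_left _ _ hGxB, B.mul_mem_left _ _ hGyB, ?_, ?_, ?_⟩
  · have e : star (s * Gx) * (x * x) * (s * Gx) - x * x
        = Gx * (star s * (x * x) * s - x * x) * Gx + (Gx * (x * x) * Gx - x * x) := by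
      rw [star_mul, hGxsa]; noncomm_ring
    rw [e]
    calc ‖Gx * (star s * (x * x) * s - x * x) * Gx + (Gx * (x * x) * Gx - x * x)‖
        ≤ ‖Gx * (star s * (x * x) * s - x * x) * Gx‖ + ‖Gx * (x * x) * Gx - x * x‖ :=
          norm_add_le _ _
      _ ≤ ‖star s * (x * x) * s - x * x‖ + ε / 2 :=
          add_le_add (norm_mul_mul_le_of_le_one hGxn hGxn) hGxh
      _ < ε := by linarith
  · have e : star (t * Gy) * (y * y) * (t * Gy) - y * y
        = Gy * (star t * (y * y) * t - y * y) * Gy + (Gy * (y * y) * Gy - y * y) := by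
      rw [star_mul, hGysa]; noncomm_ring
    rw [e]
    calc ‖Gy * (star t * (y * y) * t - y * y) * Gy + (Gy * (y * y) * Gy - y * y)‖
        ≤ ‖Gy * (star t * (y * y) * t - y * y) * Gy‖ + ‖Gy * (y * y) * Gy - y * y‖ :=
          norm_add_le _ _
      _ ≤ ‖star t * (y * y) * t - y * y‖ + ε / 2 :=
          add_le_add (norm_mul_mul_le_of_le_one hGyn hGyn) hGyh
      _ < ε := by linarith
  · have e : star (s * Gx) * (x * y) * (t * Gy) = Gx * (star s * (x * y) * t) * Gy := by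
      rw [star_mul, hGxsa]; noncomm_ring
    rw [e]
    calc ‖Gx * (star s * (x * y) * t) * Gy‖ ≤ ‖star s * (x * y) * t‖ :=
          norm_mul_mul_le_of_le_one hGxn hGyn
      _ < ε := by linarith

section NonUnital

open Unitization

variable {A : Type*} [NonUnitalCStarAlgebra A] [PartialOrder A] [StarOrderedRing A]

/-- **Weakly purely infinite implies strongly purely infinite** for (possibly non-unital)
C*-algebras whose closed two-sided ideals are totally ordered. -/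
theorem spi_of_wpi_nonunital
    (hchain : ∀ I J : TwoSidedIdeal A, IsClosed (I : Set A) → IsClosed (J : Set A) →
      I ≤ J ∨ J ≤ I)
    (n : ℕ) (hn : 1 ≤ n)
    (hwpi : ∀ h : A, 0 ≤ h → ∀ ε : ℝ, 0 < ε → ∃ r : Fin n → Fin (2 * n) → A,
      ∀ i j : Fin (2 * n),
        ‖∑ k : Fin n, star (r k i) * h * r k j - (if i = j then h else 0)‖ < ε) :
    ∀ x y : A, 0 ≤ x → 0 ≤ y → ∀ ε : ℝ, 0 < ε → ∃ s t : A,
      ‖star s * (x * x) * s - x * x‖ < ε ∧ ‖star t * (y * y) * t - y * y‖ < ε ∧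
        ‖star s * (x * y) * t‖ < ε := by
  have hpi : ∀ h : Unitization ℂ A, h ∈ inrIdeal A → 0 ≤ h →
      AmpSub (Fin (2 * n)) (Fin n) h h := by
    intro h hhB hh ε hε
    have hfst : h.fst = 0 := (mem_inrIdeal h).mp hhB
    have hh' : 0 ≤ h.snd := by
      rw [eq_inr_snd hfst] at hh
      exact inr_nonneg_iff.mp hh
    obtain ⟨r, hr⟩ := hwpi h.snd hh' ε hε
    refine ⟨fun k i => (r k i : Unitization ℂ A), fun i j => ?_⟩
    rw [eq_inr_snd hfst, inr_gram r h.snd h.snd i j, norm_inr]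
    exact hr i j
  have hpi1 := pi_of_wpi_rel (inrIdeal A) isClosed_inrIdeal (chainIn_inrIdeal hchain) n hn hpi
  intro x y hx hy ε hε
  have hx' : 0 ≤ (x : Unitization ℂ A) := inr_nonneg_iff.mpr hx
  have hy' : 0 ≤ (y : Unitization ℂ A) := inr_nonneg_iff.mpr hy
  obtain ⟨s, t, hsB, htB, h1, h2, h3⟩ := spi_rel_in_ideal (inrIdeal A) isClosed_inrIdeal
    (chainIn_inrIdeal hchain) hpi1 hx' hy' (inr_mem_inrIdeal x) (inr_mem_inrIdeal y) hε
  obtain ⟨s', hs'⟩ : ∃ s' : A, s = (s' : Unitization ℂ A) :=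
    ⟨s.snd, eq_inr_snd ((mem_inrIdeal _).mp hsB)⟩
  obtain ⟨t', ht'⟩ : ∃ t' : A, t = (t' : Unitization ℂ A) :=
    ⟨t.snd, eq_inr_snd ((mem_inrIdeal _).mp htB)⟩
  subst hs' ht'
  refine ⟨s', t', ?_, ?_, ?_⟩
  · have e : star (s' : Unitization ℂ A) * ((x : Unitization ℂ A) * (x : Unitization ℂ A))
          * (s' : Unitization ℂ A) - (x : Unitization ℂ A) * (x : Unitization ℂ A)
        = ((star s' * (x * x) * s' - x * x : A) : Unitization ℂ A) := by
      simp only [inr_mul, inr_star, inr_sub]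
    rw [e, norm_inr] at h1
    exact h1
  · have e : star (t' : Unitization ℂ A) * ((y : Unitization ℂ A) * (y : Unitization ℂ A))
          * (t' : Unitization ℂ A) - (y : Unitization ℂ A) * (y : Unitization ℂ A)
        = ((star t' * (y * y) * t' - y * y : A) : Unitization ℂ A) := by
      simp only [inr_mul, inr_star, inr_sub]
    rw [e, norm_inr] at h2
    exact h2
  · have e : star (s' : Unitization ℂ A) * ((x : Unitization ℂ A) * (y : Unitization ℂ A))
          * (t' : Unitization ℂ A)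
        = ((star s' * (x * y) * t' : A) : Unitization ℂ A) := by
      simp only [inr_mul, inr_star]
    rw [e, norm_inr] at h3
    exact h3

end NonUnital

end Vale.Agent.H36.PI
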